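import Vale.Agent.P121.Kernel

/-! Construction of one branch of contact configurations. -/

namespace Vale.Agent.P121

open Metric Set

variable {E : Type*} [NormedAddCommGroup E] [InnerProductSpace ℝ E]

/-- A balanced configuration near the straight reference configuration `(0, e, -e)`. -/
structure IsCfg (e x y z : E) : Prop where
  hxy1 : 9 / 10 ≤ ‖x - y‖
  hxy2 : ‖x - y‖ ≤ 11 / 10
  hxz1 : 9 / 10 ≤ ‖x - z‖
  hxz2 : ‖x - z‖ ≤ 11 / 10
  hyz1 : 19 / 10 ≤ ‖y - z‖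
  hyz2 : ‖y - z‖ ≤ 21 / 10
  eq1 : frc (x - y) + frc (x - z) = (1000 : ℝ) • x
  eq2 : -((5 / 4 : ℝ) • e) + frc (y - x) + frc (y - z) = (1000 : ℝ) • (y - e)

/-- Real-valued three-particle Coulomb energy. -/
noncomputable def coul (x y z : E) : ℝ := ‖x - y‖⁻¹ + ‖x - z‖⁻¹ + ‖y - z‖⁻¹

/-- Potential near the origin. -/
noncomputable def phiX (x : E) : ℝ := 3 / 2 - 500 * ‖x‖ ^ 2

/-- Potential near `e`. -/
noncomputable def phiY (e y : E) : ℝ :=
  1 / 2 - 5 / 4 * inner ℝ e (y - e) - 500 * ‖y - e‖ ^ 2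

lemma IsCfg.compare {e x y z x' y' z' : E} (h : IsCfg e x y z) (h' : IsCfg e x' y' z') :
    ‖y - y'‖ ≤ ‖x - x'‖ ∧ ‖z - z'‖ ≤ 2000 * ‖x - x'‖ ∧ ‖x - x'‖ ≤ 1000 * ‖y - y'‖ ∧
      ‖x - x'‖ ≤ ‖z - z'‖ := by
  have e1 : ‖(x - y) - (x' - y')‖ ≤ ‖x - x'‖ + ‖y - y'‖ := by
    rw [show (x - y) - (x' - y') = (x - x') - (y - y') by abel]
    exact norm_sub_le _ _
  have e1' : ‖(y - x) - (y' - x')‖ ≤ ‖x - x'‖ + ‖y - y'‖ := by
    rw [show (y - x) - (y' - x') = (y - y') - (x - x') by abel]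
    exact (norm_sub_le _ _).trans (by linarith)
  have e2 : ‖(x - z) - (x' - z')‖ ≤ ‖x - x'‖ + ‖z - z'‖ := by
    rw [show (x - z) - (x' - z') = (x - x') - (z - z') by abel]
    exact norm_sub_le _ _
  have e2' : ‖z - z'‖ ≤ ‖x - x'‖ + ‖(x - z) - (x' - z')‖ := by
    have : z - z' = (x - x') - ((x - z) - (x' - z')) := by abel
    rw [this]
    exact norm_sub_le _ _
  have e3 : ‖(y - z) - (y' - z')‖ ≤ ‖y - y'‖ + ‖z - z'‖ := by
    rw [show (y - z) - (y' - z') = (y - y') - (z - z') by abel]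
    exact norm_sub_le _ _
  have e3' : ‖z - z'‖ ≤ ‖y - y'‖ + ‖(y - z) - (y' - z')‖ := by
    have : z - z' = (y - y') - ((y - z) - (y' - z')) := by abel
    rw [this]
    exact norm_sub_le _ _
  have f1 := frc_upper (x - y) (x' - y') (r := 9 / 10) (by norm_num) h.hxy1 h'.hxy1
  have f1' := frc_upper (y - x) (y' - x') (r := 9 / 10) (by norm_num)
    (by rw [norm_sub_rev]; exact h.hxy1) (by rw [norm_sub_rev]; exact h'.hxy1)
  have f2 := frc_upper (x - z) (x' - z') (r := 9 / 10) (by norm_num) h.hxz1 h'.hxz1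
  have f3 := frc_upper (y - z) (y' - z') (r := 19 / 10) (by norm_num) h.hyz1 h'.hyz1
  have nz : ∀ u : E, (0 : ℝ) < ‖u‖ → u ≠ 0 := fun u hu => norm_pos_iff.mp hu
  have g2 := frc_lower (x - z) (x' - z') (r := 11 / 10) (by norm_num)
    (nz _ (by linarith [h.hxz1])) (nz _ (by linarith [h'.hxz1])) h.hxz2 h'.hxz2
  have g3 := frc_lower (y - z) (y' - z') (r := 21 / 10) (by norm_num)
    (nz _ (by linarith [h.hyz1])) (nz _ (by linarith [h'.hyz1])) h.hyz2 h'.hyz2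
  have k1 : ‖frc (x - z) - frc (x' - z')‖
      ≤ 1000 * ‖x - x'‖ + ‖frc (x - y) - frc (x' - y')‖ := by
    have : frc (x - z) - frc (x' - z')
        = (1000 : ℝ) • (x - x') - (frc (x - y) - frc (x' - y')) := by
      rw [smul_sub, ← h.eq1, ← h'.eq1]; abel
    rw [this]
    refine (norm_sub_le _ _).trans ?_
    rw [norm_smul]; norm_num
  have k2 : 1000 * ‖x - x'‖ ≤ ‖frc (x - y) - frc (x' - y')‖ + ‖frc (x - z) - frc (x' - z')‖ := by
    have : (1000 : ℝ) • (x - x')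
        = (frc (x - y) - frc (x' - y')) + (frc (x - z) - frc (x' - z')) := by
      rw [smul_sub, ← h.eq1, ← h'.eq1]; abel
    have h2 := norm_add_le (frc (x - y) - frc (x' - y')) (frc (x - z) - frc (x' - z'))
    rw [← this, norm_smul] at h2
    norm_num at h2
    linarith
  have k3 : ‖frc (y - z) - frc (y' - z')‖
      ≤ 1000 * ‖y - y'‖ + ‖frc (y - x) - frc (y' - x')‖ := by
    have : frc (y - z) - frc (y' - z')
        = (1000 : ℝ) • (y - y') - (frc (y - x) - frc (y' - x')) := by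
      have a1 : (1000 : ℝ) • (y - y') = (1000 : ℝ) • (y - e) - (1000 : ℝ) • (y' - e) := by
        rw [← smul_sub]; congr 1; abel
      rw [a1, ← h.eq2, ← h'.eq2]; abel
    rw [this]
    refine (norm_sub_le _ _).trans ?_
    rw [norm_smul]; norm_num
  have k4 : 1000 * ‖y - y'‖ ≤ ‖frc (y - x) - frc (y' - x')‖ + ‖frc (y - z) - frc (y' - z')‖ := by
    have : (1000 : ℝ) • (y - y')
        = (frc (y - x) - frc (y' - x')) + (frc (y - z) - frc (y' - z')) := by
      have a1 : (1000 : ℝ) • (y - y') = (1000 : ℝ) • (y - e) - (1000 : ℝ) • (y' - e) := by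
        rw [← smul_sub]; congr 1; abel
      rw [a1, ← h.eq2, ← h'.eq2]; abel
    have h2 := norm_add_le (frc (y - x) - frc (y' - x')) (frc (y - z) - frc (y' - z'))
    rw [← this, norm_smul] at h2
    norm_num at h2
    linarith
  norm_num at f1 f1' f2 f3 g2 g3
  have a0 := norm_nonneg (x - x')
  have b0 := norm_nonneg (y - y')
  have c0 := norm_nonneg (z - z')
  refine ⟨?_, ?_, ?_, ?_⟩ <;> linarith

lemma IsCfg.minim {e x y z : E} (h : IsCfg e x y z) (x' y' : E)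
    (h1 : x' ≠ y') (h2 : x' ≠ z) (h3 : y' ≠ z) :
    coul x y z - phiX x - phiY e y + (‖x' - x‖ ^ 2 + ‖y' - y‖ ^ 2)
      ≤ coul x' y' z - phiX x' - phiY e y' := by
  have nz : ∀ u : E, (0 : ℝ) < ‖u‖ → u ≠ 0 := fun u hu => norm_pos_iff.mp hu
  have t1 := tangent (x - y) (x' - y') (nz _ (by linarith [h.hxy1])) (sub_ne_zero.mpr h1)
  have t2 := tangent (x - z) (x' - z) (nz _ (by linarith [h.hxz1])) (sub_ne_zero.mpr h2)
  have t3 := tangent (y - z) (y' - z) (nz _ (by linarith [h.hyz1])) (sub_ne_zero.mpr h3)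
  set p := x' - x with hp
  set q := y' - y with hq
  rw [show (x' - y') - (x - y) = p - q by rw [hp, hq]; abel] at t1
  rw [show (x' - z) - (x - z) = p by rw [hp]; abel] at t2
  rw [show (y' - z) - (y - z) = q by rw [hq]; abel] at t3
  have hpq : ‖p - q‖ ^ 2 ≤ 2 * (‖p‖ ^ 2 + ‖q‖ ^ 2) := by
    have := parallelogram_law_with_norm ℝ p q
    nlinarith [sq_nonneg ‖p + q‖]
  have d1 : ‖p - q‖ ^ 2 / (2 * ‖x - y‖ ^ 3) ≤ 2 * (‖p‖ ^ 2 + ‖q‖ ^ 2) := by
    have : (1 : ℝ) ≤ 2 * ‖x - y‖ ^ 3 := by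
      have : (9 / 10 : ℝ) ^ 3 ≤ ‖x - y‖ ^ 3 := by
        gcongr; exact h.hxy1
      norm_num at this; linarith
    calc ‖p - q‖ ^ 2 / (2 * ‖x - y‖ ^ 3) ≤ ‖p - q‖ ^ 2 / 1 := by gcongr
      _ ≤ _ := by rw [div_one]; exact hpq
  have d2 : ‖p‖ ^ 2 / (2 * ‖x - z‖ ^ 3) ≤ ‖p‖ ^ 2 := by
    have : (1 : ℝ) ≤ 2 * ‖x - z‖ ^ 3 := by
      have : (9 / 10 : ℝ) ^ 3 ≤ ‖x - z‖ ^ 3 := by
        gcongr; exact h.hxz1
      norm_num at this; linarith
    exact div_le_self (sq_nonneg _) this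
  have d3 : ‖q‖ ^ 2 / (2 * ‖y - z‖ ^ 3) ≤ ‖q‖ ^ 2 := by
    have : (1 : ℝ) ≤ 2 * ‖y - z‖ ^ 3 := by
      have : (19 / 10 : ℝ) ^ 3 ≤ ‖y - z‖ ^ 3 := by
        gcongr; exact h.hyz1
      norm_num at this; linarith
    exact div_le_self (sq_nonneg _) this
  have l1 : inner ℝ (frc (x - y)) p + inner ℝ (frc (x - z)) p = 1000 * inner ℝ x p := by
    rw [← inner_add_left, h.eq1, inner_smul_left]; simp
  have l2 : -(5 / 4) * inner ℝ e q - inner ℝ (frc (x - y)) q + inner ℝ (frc (y - z)) q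
      = 1000 * inner ℝ (y - e) q := by
    have := congrArg (fun v => inner ℝ v q) h.eq2
    simp only [inner_add_left, inner_neg_left, inner_smul_left] at this
    have hneg : frc (y - x) = -frc (x - y) := by
      rw [← frc_neg]; congr 1; abel
    rw [hneg, inner_neg_left] at this
    simp at this
    linarith
  have p1 : phiX x' = phiX x - 1000 * inner ℝ x p - 500 * ‖p‖ ^ 2 := by
    unfold phiX
    have : x' = x + p := by rw [hp]; abel
    rw [this, norm_add_sq_real]; ring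
  have p2 : phiY e y' = phiY e y - 5 / 4 * inner ℝ e q - 1000 * inner ℝ (y - e) q
      - 500 * ‖q‖ ^ 2 := by
    unfold phiY
    have : y' - e = (y - e) + q := by rw [hq]; abel
    rw [this, norm_add_sq_real, inner_add_right]; ring
  rw [inner_sub_right] at t1
  unfold coul
  rw [p1, p2]
  have pp := sq_nonneg ‖p‖
  have qq := sq_nonneg ‖q‖
  linarith

end Vale.Agent.P121
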