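import Mathlib

/-! Definitions used in the statement: the Coulomb cost, couplings, the Kantorovich value and
optimal Monge plans for three particles in `ℝ^d`. -/

namespace Vale.Agent.P121

open MeasureTheory
open scoped ENNReal

/-- The three-particle Coulomb cost `1/|x-y| + 1/|x-z| + 1/|y-z|` on `ℝ^d`, with values in
`[0, ∞]`; it is `∞` as soon as two of the points coincide (`edist` is the Euclidean distance and
`0⁻¹ = ∞` in `ℝ≥0∞`). -/
noncomputable def coulombCost {d : ℕ} (x y z : EuclideanSpace ℝ (Fin d)) : ℝ≥0∞ :=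
  (edist x y)⁻¹ + (edist x z)⁻¹ + (edist y z)⁻¹

/-- `π` belongs to `Π(μ, μ, μ)`: a Borel probability measure on `(ℝ^d)³` whose three coordinate
marginals are all equal to `μ`. -/
def IsCoupling {d : ℕ} (μ : Measure (EuclideanSpace ℝ (Fin d)))
    (π : Measure (EuclideanSpace ℝ (Fin d) × EuclideanSpace ℝ (Fin d) ×
      EuclideanSpace ℝ (Fin d))) : Prop :=
  IsProbabilityMeasure π ∧ π.map (fun p => p.1) = μ ∧ π.map (fun p => p.2.1) = μ ∧
    π.map (fun p => p.2.2) = μ

/-- The Kantorovich value `E(μ)`: the infimum of the Coulomb cost over all couplings. -/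
noncomputable def kantorovichValue {d : ℕ} (μ : Measure (EuclideanSpace ℝ (Fin d))) : ℝ≥0∞ :=
  ⨅ (π : Measure (EuclideanSpace ℝ (Fin d) × EuclideanSpace ℝ (Fin d) ×
      EuclideanSpace ℝ (Fin d))) (_ : IsCoupling μ π),
    ∫⁻ p, coulombCost p.1 p.2.1 p.2.2 ∂π

/-- `μ` admits an optimal Monge plan `(Id, T₂, T₃)_# μ`. -/
def HasOptimalMongePlan {d : ℕ} (μ : Measure (EuclideanSpace ℝ (Fin d))) : Prop :=
  ∃ T₂ T₃ : EuclideanSpace ℝ (Fin d) → EuclideanSpace ℝ (Fin d),
    Measurable T₂ ∧ Measurable T₃ ∧ μ.map T₂ = μ ∧ μ.map T₃ = μ ∧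
      ∫⁻ x, coulombCost x (T₂ x) (T₃ x) ∂μ = kantorovichValue μ

end Vale.Agent.P121
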