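import Mathlib

/-! Abstract mass balance argument. -/

namespace Vale.Agent.P121

open MeasureTheory Set
open scoped ENNReal

/-- `(a, b, c)` is a rearrangement of `(x, y, z)`. -/
def Rearr {E : Type*} (a b c x y z : E) : Prop :=
  (a = x ∧ b = y ∧ c = z) ∨ (a = x ∧ b = z ∧ c = y) ∨ (a = y ∧ b = x ∧ c = z) ∨
    (a = y ∧ b = z ∧ c = x) ∨ (a = z ∧ b = x ∧ c = y) ∨ (a = z ∧ b = y ∧ c = x)

lemma mass_balance {E : Type*} [MeasurableSpace E] (ν μ : Measure E) [IsProbabilityMeasure ν]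
    {y z y' z' τy τz : E → E} (hy : Measurable y) (hz : Measurable z) (hy' : Measurable y')
    (hz' : Measurable z') (hτy : Measurable τy) (hτz : Measurable τz)
    {B RY RZ RY' RZ' : Set E} (hB : MeasurableSet B) (mRY : MeasurableSet RY)
    (mRZ : MeasurableSet RZ)
    (dBY : Disjoint B RY) (dBZ : Disjoint B RZ) (dBY' : Disjoint B RY') (dBZ' : Disjoint B RZ')
    (dYZ : Disjoint RY RZ) (dYY' : Disjoint RY RY') (dYZ' : Disjoint RY RZ')
    (dZY' : Disjoint RZ RY') (dZZ' : Disjoint RZ RZ')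
    (hνB : ∀ᵐ x ∂ν, x ∈ B)
    (hμ : μ = (6 : ℝ≥0∞)⁻¹ • (ν + ν + ν.map y + ν.map z + ν.map y' + ν.map z'))
    (inY : ∀ t ∈ B, y t ∈ RY) (inZ : ∀ t ∈ B, z t ∈ RZ)
    (inY' : ∀ t ∈ B, y' t ∈ RY') (inZ' : ∀ t ∈ B, z' t ∈ RZ')
    (ty : ∀ t ∈ B, τy (y t) = t) (tz : ∀ t ∈ B, τz (z t) = t)
    {T2 T3 : E → E} (hT2 : Measurable T2) (hT3 : Measurable T3)
    (m2 : μ.map T2 = μ) (m3 : μ.map T3 = μ)
    (hc : ∀ᵐ x ∂μ, ∃ t ∈ B, Rearr x (T2 x) (T3 x) t (y t) (z t) ∨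
      Rearr x (T2 x) (T3 x) t (y' t) (z' t)) :
    ν {x | x ∈ B ∧ T2 x ∈ RY ∪ RZ} = 0 := by
  set A : Set E := {x | x ∈ B ∧ T2 x ∈ RY ∪ RZ} with hA
  have mA : MeasurableSet A := hB.inter (hT2 (mRY.union mRZ))
  set yA : Set E := {p | p ∈ RY ∧ τy p ∈ A} with hyA
  set zA : Set E := {p | p ∈ RZ ∧ τz p ∈ A} with hzA
  have myA : MeasurableSet yA := mRY.inter (hτy mA)
  have mzA : MeasurableSet zA := mRZ.inter (hτz mA)
  have nB : ∀ {P R : Set E}, Disjoint P R → ∀ {x : E}, x ∈ P → x ∈ R → False := by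
    intro P R h x h1 h2
    exact (Set.disjoint_left.mp h) h1 h2
  -- pointwise statement
  have key : ∀ᵐ x ∂μ, x ∈ A ∪ yA → x ∈ T2 ⁻¹' zA ∪ T3 ⁻¹' zA := by
    filter_upwards [hc] with x hx hxA
    obtain ⟨t, ht, h⟩ := hx
    have hyt := inY t ht
    have hzt := inZ t ht
    have hyt' := inY' t ht
    have hzt' := inZ' t ht
    rcases hxA with hxA | hxA
    · have hxA' := hxA
      obtain ⟨hxB, hxT⟩ := hxA
      have fin : T2 x = z x ∨ T3 x = z x → x ∈ T2 ⁻¹' zA ∪ T3 ⁻¹' zA := by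
        rintro (h1 | h1)
        · left
          change T2 x ∈ RZ ∧ τz (T2 x) ∈ A
          rw [h1]
          exact ⟨inZ x hxB, by rw [tz x hxB]; exact hxA'⟩
        · right
          change T3 x ∈ RZ ∧ τz (T3 x) ∈ A
          rw [h1]
          exact ⟨inZ x hxB, by rw [tz x hxB]; exact hxA'⟩
      have bad : T2 x ∈ RY' ∨ T2 x ∈ RZ' → False := by
        rintro (h1 | h1)
        · rcases hxT with h2 | h2
          · exact nB dYY' h2 h1
          · exact nB dZY' h2 h1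
        · rcases hxT with h2 | h2
          · exact nB dYZ' h2 h1
          · exact nB dZZ' h2 h1
      rcases h with h | h
      · rcases h with ⟨h1, h2, h3⟩ | ⟨h1, h2, h3⟩ | ⟨h1, h2, h3⟩ | ⟨h1, h2, h3⟩ | ⟨h1, h2, h3⟩ |
          ⟨h1, h2, h3⟩
        · exact fin (Or.inr (by rw [h3, h1]))
        · exact fin (Or.inl (by rw [h2, h1]))
        · exact (nB dBY hxB (by rw [h1]; exact hyt)).elim
        · exact (nB dBY hxB (by rw [h1]; exact hyt)).elim
        · exact (nB dBZ hxB (by rw [h1]; exact hzt)).elim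
        · exact (nB dBZ hxB (by rw [h1]; exact hzt)).elim
      · rcases h with ⟨h1, h2, h3⟩ | ⟨h1, h2, h3⟩ | ⟨h1, h2, h3⟩ | ⟨h1, h2, h3⟩ | ⟨h1, h2, h3⟩ |
          ⟨h1, h2, h3⟩
        · exact (bad (Or.inl (by rw [h2]; exact hyt'))).elim
        · exact (bad (Or.inr (by rw [h2]; exact hzt'))).elim
        · exact (nB dBY' hxB (by rw [h1]; exact hyt')).elim
        · exact (nB dBY' hxB (by rw [h1]; exact hyt')).elim
        · exact (nB dBZ' hxB (by rw [h1]; exact hzt')).elim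
        · exact (nB dBZ' hxB (by rw [h1]; exact hzt')).elim
    · obtain ⟨hxY, hxT⟩ := hxA
      have fin : x = y t → T2 x = z t ∨ T3 x = z t → x ∈ T2 ⁻¹' zA ∪ T3 ⁻¹' zA := by
        intro h0 h1
        have htA : t ∈ A := by
          rw [h0, ty t ht] at hxT; exact hxT
        rcases h1 with h1 | h1
        · left
          change T2 x ∈ RZ ∧ τz (T2 x) ∈ A
          rw [h1]
          exact ⟨hzt, by rw [tz t ht]; exact htA⟩
        · right
          change T3 x ∈ RZ ∧ τz (T3 x) ∈ A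
          rw [h1]
          exact ⟨hzt, by rw [tz t ht]; exact htA⟩
      rcases h with h | h
      · rcases h with ⟨h1, h2, h3⟩ | ⟨h1, h2, h3⟩ | ⟨h1, h2, h3⟩ | ⟨h1, h2, h3⟩ | ⟨h1, h2, h3⟩ |
          ⟨h1, h2, h3⟩
        · exact (nB dBY ht (by rw [← h1]; exact hxY)).elim
        · exact (nB dBY ht (by rw [← h1]; exact hxY)).elim
        · exact fin h1 (Or.inr h3)
        · exact fin h1 (Or.inl h2)
        · exact (nB dYZ hxY (by rw [h1]; exact hzt)).elim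
        · exact (nB dYZ hxY (by rw [h1]; exact hzt)).elim
      · rcases h with ⟨h1, h2, h3⟩ | ⟨h1, h2, h3⟩ | ⟨h1, h2, h3⟩ | ⟨h1, h2, h3⟩ | ⟨h1, h2, h3⟩ |
          ⟨h1, h2, h3⟩
        · exact (nB dBY ht (by rw [← h1]; exact hxY)).elim
        · exact (nB dBY ht (by rw [← h1]; exact hxY)).elim
        · exact (nB dYY' hxY (by rw [h1]; exact hyt')).elim
        · exact (nB dYY' hxY (by rw [h1]; exact hyt')).elim
        · exact (nB dYZ' hxY (by rw [h1]; exact hzt')).elim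
        · exact (nB dYZ' hxY (by rw [h1]; exact hzt')).elim
  -- measure inequality
  have disj : Disjoint A yA := by
    rw [Set.disjoint_left]
    intro x hx hx'
    exact nB dBY hx.1 hx'.1
  have ineq : μ A + μ yA ≤ μ zA + μ zA := by
    rw [← measure_union disj myA]
    have e2 : μ (T2 ⁻¹' zA) = μ zA := by
      conv_rhs => rw [← m2]
      rw [Measure.map_apply hT2 mzA]
    have e3 : μ (T3 ⁻¹' zA) = μ zA := by
      conv_rhs => rw [← m3]
      rw [Measure.map_apply hT3 mzA]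
    calc μ (A ∪ yA) ≤ μ (T2 ⁻¹' zA ∪ T3 ⁻¹' zA) := measure_mono_ae key
      _ ≤ μ (T2 ⁻¹' zA) + μ (T3 ⁻¹' zA) := measure_union_le _ _
      _ = μ zA + μ zA := by rw [e2, e3]
  have formula : ∀ M : Set E, MeasurableSet M → μ M = (6 : ℝ≥0∞)⁻¹ *
      (ν M + ν M + ν (y ⁻¹' M) + ν (z ⁻¹' M) + ν (y' ⁻¹' M) + ν (z' ⁻¹' M)) := by
    intro M hM
    rw [hμ]
    simp only [Measure.smul_apply, Measure.add_apply, Measure.map_apply hy hM,
      Measure.map_apply hz hM, Measure.map_apply hy' hM, Measure.map_apply hz' hM, smul_eq_mul]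
  have lowA : (6 : ℝ≥0∞)⁻¹ * (ν A + ν A) ≤ μ A := by
    rw [formula A mA]
    refine mul_le_mul' le_rfl ?_
    rw [add_assoc (ν A + ν A + ν (y ⁻¹' A)), add_assoc (ν A + ν A + ν (y ⁻¹' A)),
      add_assoc (ν A + ν A)]
    exact le_self_add
  have lowY : (6 : ℝ≥0∞)⁻¹ * (ν A) ≤ μ yA := by
    rw [formula yA myA]
    refine mul_le_mul' le_rfl ?_
    have h1 : ν A ≤ ν (y ⁻¹' yA) := by
      apply measure_mono
      intro t ht
      exact ⟨inY t ht.1, by rw [ty t ht.1]; exact ht⟩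
    refine h1.trans ?_
    have : ν yA + ν yA + ν (y ⁻¹' yA) + ν (z ⁻¹' yA) + ν (y' ⁻¹' yA) + ν (z' ⁻¹' yA)
      = ν (y ⁻¹' yA) + (ν yA + ν yA + ν (z ⁻¹' yA) + ν (y' ⁻¹' yA) + ν (z' ⁻¹' yA)) := by
      ring
    rw [this]
    exact le_self_add
  have upZ : μ zA ≤ (6 : ℝ≥0∞)⁻¹ * (ν A) := by
    rw [formula zA mzA]
    refine mul_le_mul' le_rfl ?_
    have z0 : ν zA = 0 := by
      rw [measure_eq_zero_iff_ae_notMem]
      filter_upwards [hνB] with x hx hcon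
      exact nB dBZ hx hcon.1
    have z1 : ν (y ⁻¹' zA) = 0 := by
      rw [measure_eq_zero_iff_ae_notMem]
      filter_upwards [hνB] with x hx hcon
      exact nB dYZ (inY x hx) hcon.1
    have z2 : ν (y' ⁻¹' zA) = 0 := by
      rw [measure_eq_zero_iff_ae_notMem]
      filter_upwards [hνB] with x hx hcon
      exact nB dZY' hcon.1 (inY' x hx)
    have z3 : ν (z' ⁻¹' zA) = 0 := by
      rw [measure_eq_zero_iff_ae_notMem]
      filter_upwards [hνB] with x hx hcon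
      exact nB dZZ' hcon.1 (inZ' x hx)
    have z4 : ν (z ⁻¹' zA) ≤ ν A := by
      apply measure_mono_ae
      filter_upwards [hνB] with x hx hcon
      have : τz (z x) ∈ A := hcon.2
      rw [tz x hx] at this
      exact this
    rw [z0, z1, z2, z3]
    simpa using z4
  have fin : (6 : ℝ≥0∞)⁻¹ * (ν A + ν A) + (6 : ℝ≥0∞)⁻¹ * (ν A)
      ≤ (6 : ℝ≥0∞)⁻¹ * (ν A) + (6 : ℝ≥0∞)⁻¹ * (ν A) :=
    (add_le_add lowA lowY).trans (ineq.trans (add_le_add upZ upZ))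
  have hfin : ν A ≠ ∞ := measure_ne_top _ _
  have h6 : (6 : ℝ≥0∞)⁻¹ * (ν A) ≠ ∞ := ENNReal.mul_ne_top (by simp) hfin
  have fin2 : (6 : ℝ≥0∞)⁻¹ * (ν A) + ((6 : ℝ≥0∞)⁻¹ * (ν A) + (6 : ℝ≥0∞)⁻¹ * (ν A))
      ≤ 0 + ((6 : ℝ≥0∞)⁻¹ * (ν A) + (6 : ℝ≥0∞)⁻¹ * (ν A)) := by
    rw [zero_add]
    refine le_trans (le_of_eq ?_) fin
    ring
  have fin3 : (6 : ℝ≥0∞)⁻¹ * (ν A) ≤ 0 :=
    (ENNReal.add_le_add_iff_right (ENNReal.add_ne_top.mpr ⟨h6, h6⟩)).mp fin2
  have fin4 : (6 : ℝ≥0∞)⁻¹ * (ν A) = 0 := le_antisymm fin3 bot_le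
  rcases mul_eq_zero.mp fin4 with h | h
  · simp at h
  · exact h

end Vale.Agent.P121
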