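import Vale.Agent.P121.Gap
import Vale.Agent.P121.Mass

/-! Duality and measurability. -/

namespace Vale.Agent.P121

open Metric Set NNReal MeasureTheory
open scoped ENNReal

/-- The extended-real-valued Coulomb energy. -/
noncomputable def costE {E : Type*} [PseudoEMetricSpace E] (a b c : E) : ℝ≥0∞ :=
  (edist a b)⁻¹ + (edist a c)⁻¹ + (edist b c)⁻¹

/-- Couplings, generic version. -/
def IsCplg {E : Type*} [MeasurableSpace E] (μ : Measure E) (π : Measure (E × E × E)) : Prop :=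
  IsProbabilityMeasure π ∧ π.map (fun p => p.1) = μ ∧ π.map (fun p => p.2.1) = μ ∧
    π.map (fun p => p.2.2) = μ

/-- Kantorovich value, generic version. -/
noncomputable def kant {E : Type*} [PseudoEMetricSpace E] [MeasurableSpace E] (μ : Measure E) :
    ℝ≥0∞ :=
  ⨅ (π : Measure (E × E × E)) (_ : IsCplg μ π), ∫⁻ p, costE p.1 p.2.1 p.2.2 ∂π

section cost

variable {E : Type*} [NormedAddCommGroup E]

lemma costE_of_ne {a b c : E} (h1 : a ≠ b) (h2 : a ≠ c) (h3 : b ≠ c) :
    costE a b c = ENNReal.ofReal (coul a b c) := by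
  have p1 : 0 < ‖a - b‖ := norm_pos_iff.mpr (sub_ne_zero.mpr h1)
  have p2 : 0 < ‖a - c‖ := norm_pos_iff.mpr (sub_ne_zero.mpr h2)
  have p3 : 0 < ‖b - c‖ := norm_pos_iff.mpr (sub_ne_zero.mpr h3)
  unfold costE coul
  rw [edist_dist, edist_dist, edist_dist, dist_eq_norm, dist_eq_norm, dist_eq_norm,
    ← ENNReal.ofReal_inv_of_pos p1, ← ENNReal.ofReal_inv_of_pos p2,
    ← ENNReal.ofReal_inv_of_pos p3, ← ENNReal.ofReal_add (by positivity) (by positivity),
    ← ENNReal.ofReal_add (by positivity) (by positivity)]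

lemma costE_top {a b c : E} (h : ¬ (a ≠ b ∧ a ≠ c ∧ b ≠ c)) : costE a b c = ∞ := by
  unfold costE
  by_cases h1 : a = b
  · simp [h1]
  by_cases h2 : a = c
  · simp [h2]
  by_cases h3 : b = c
  · simp [h3]
  exact (h ⟨h1, h2, h3⟩).elim

end cost

namespace Setup

variable {E : Type*} [NormedAddCommGroup E] [InnerProductSpace ℝ E] (S : Setup E)

/-- The union of the five clusters. -/
def D : Set E := {p | ∃ ℓ : Fin 5, ∃ t ∈ (B : Set E), p = S.w ℓ t}

/-- The potential as an extended nonnegative function. -/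
noncomputable def psi (p : E) : ℝ≥0∞ := ENNReal.ofReal (S.pot p)

lemma pot_nonneg {p : E} (hp : p ∈ S.D) : 0 ≤ S.pot p := by
  obtain ⟨ℓ, t, ht, rfl⟩ := hp
  exact (S.pot_bd ℓ ht).1

lemma pot_le {p : E} (hp : p ∈ S.D) : S.pot p ≤ 2 := by
  obtain ⟨ℓ, t, ht, rfl⟩ := hp
  refine (S.pot_bd ℓ ht).2.trans ?_
  have : ∀ ℓ : Fin 5, s ℓ ≤ 2000 := by decide
  have h : (s ℓ : ℝ) ≤ 2000 := by exact_mod_cast this ℓ
  linarith

lemma psi_sum {a b c : E} (ha : a ∈ S.D) (hb : b ∈ S.D) (hc : c ∈ S.D) :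
    S.psi a + S.psi b + S.psi c = ENNReal.ofReal (S.pot a + S.pot b + S.pot c) := by
  have h1 := S.pot_nonneg ha
  have h2 := S.pot_nonneg hb
  have h3 := S.pot_nonneg hc
  unfold psi
  rw [ENNReal.ofReal_add (by positivity) h3, ENNReal.ofReal_add h1 h2]

lemma dual_ineq {a b c : E} (ha : a ∈ S.D) (hb : b ∈ S.D) (hc : c ∈ S.D) :
    S.psi a + S.psi b + S.psi c ≤ costE a b c := by
  by_cases hd : a ≠ b ∧ a ≠ c ∧ b ≠ c
  · rw [costE_of_ne hd.1 hd.2.1 hd.2.2, S.psi_sum ha hb hc]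
    apply ENNReal.ofReal_le_ofReal
    obtain ⟨ℓ, t1, h1, rfl⟩ := ha
    obtain ⟨m, t2, h2, rfl⟩ := hb
    obtain ⟨n, t3, h3, rfl⟩ := hc
    have := (S.gap_main ℓ m n h1 h2 h3 hd.1 hd.2.1 hd.2.2).1
    unfold gap at this
    linarith
  · rw [costE_top hd]; exact le_top

lemma dual_eq {a b c : E} (ha : a ∈ S.D) (hb : b ∈ S.D) (hc : c ∈ S.D)
    (h : S.psi a + S.psi b + S.psi c = costE a b c) : S.Contact a b c := by
  by_cases hd : a ≠ b ∧ a ≠ c ∧ b ≠ c
  · rw [costE_of_ne hd.1 hd.2.1 hd.2.2, S.psi_sum ha hb hc] at h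
    have n1 := S.pot_nonneg ha
    have n2 := S.pot_nonneg hb
    have n3 := S.pot_nonneg hc
    have hcn : 0 ≤ coul a b c := by unfold coul; positivity
    rw [ENNReal.ofReal_eq_ofReal_iff (by positivity) hcn] at h
    obtain ⟨ℓ, t1, h1, rfl⟩ := ha
    obtain ⟨m, t2, h2, rfl⟩ := hb
    obtain ⟨n, t3, h3, rfl⟩ := hc
    apply (S.gap_main ℓ m n h1 h2 h3 hd.1 hd.2.1 hd.2.2).2
    unfold gap
    linarith
  · rw [costE_top hd, S.psi_sum ha hb hc] at h
    exact (ENNReal.ofReal_ne_top h).elim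

/-- The second map of the mirrored branch. -/
def y' (t : E) : E := S.ρ (S.Y (S.ρ t))

/-- The third map of the mirrored branch. -/
def z' (t : E) : E := S.ρ (S.Z (S.ρ t))

lemma contact_rearr {a b c : E} (h : S.Contact a b c) :
    ∃ t ∈ (B : Set E), Rearr a b c t (S.Y t) (S.Z t) ∨ Rearr a b c t (S.y' t) (S.z' t) := by
  unfold Rearr y' z'
  rcases h with h | h | h | h | h | h <;> obtain ⟨hB, ⟨h1, h2⟩ | ⟨h1, h2⟩⟩ := h <;>
    exact ⟨_, hB, by simp [h1, h2]⟩

lemma memD0 {t : E} (ht : t ∈ (B : Set E)) : t ∈ S.D := ⟨0, t, ht, rfl⟩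
lemma memD1 {t : E} (ht : t ∈ (B : Set E)) : S.Y t ∈ S.D := ⟨1, t, ht, rfl⟩
lemma memD2 {t : E} (ht : t ∈ (B : Set E)) : S.Z t ∈ S.D := ⟨2, t, ht, rfl⟩
lemma memD3 {t : E} (ht : t ∈ (B : Set E)) : S.y' t ∈ S.D := ⟨3, t, ht, rfl⟩
lemma memD4 {t : E} (ht : t ∈ (B : Set E)) : S.z' t ∈ S.D := ⟨4, t, ht, rfl⟩

lemma cost_S {t : E} (ht : t ∈ (B : Set E)) :
    costE t (S.Y t) (S.Z t) = S.psi t + S.psi (S.Y t) + S.psi (S.Z t) := by
  have hc := (S.spec t ht).2.2.1
  have nz : ∀ u v : E, (0 : ℝ) < ‖u - v‖ → u ≠ v := fun u v hu => by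
    rw [← sub_ne_zero]; exact norm_pos_iff.mp hu
  rw [costE_of_ne (nz _ _ (by linarith [hc.hxy1])) (nz _ _ (by linarith [hc.hxz1]))
    (nz _ _ (by linarith [hc.hyz1])), S.psi_sum (S.memD0 ht) (S.memD1 ht) (S.memD2 ht),
    S.pot0 ht, S.pot1 ht, S.pot2 ht]
  congr 1
  ring

lemma cost_T {t : E} (ht : t ∈ (B : Set E)) :
    costE t (S.y' t) (S.z' t) = S.psi t + S.psi (S.y' t) + S.psi (S.z' t) := by
  have h := S.cost_S (S.ρB ht)
  have e1 : costE t (S.y' t) (S.z' t) = costE (S.ρ t) (S.Y (S.ρ t)) (S.Z (S.ρ t)) := by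
    unfold costE y' z'
    rw [← LinearIsometryEquiv.edist_map S.ρ t, ← LinearIsometryEquiv.edist_map S.ρ t,
      ← LinearIsometryEquiv.edist_map S.ρ (S.ρ (S.Y (S.ρ t))), S.ρρ, S.ρρ]
  have e2 : S.psi (S.y' t) = S.psi (S.Y (S.ρ t)) := by
    unfold psi y'
    rw [S.pot3 ht, S.pot1 (S.ρB ht)]
  have e3 : S.psi (S.z' t) = S.psi (S.Z (S.ρ t)) := by
    unfold psi z'
    rw [S.pot4 ht, S.pot2 (S.ρB ht)]
  have e4 : S.psi t = S.psi (S.ρ t) := by
    unfold psi
    rw [S.pot0 ht, S.pot0 (S.ρB ht)]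
    unfold phiX
    rw [LinearIsometryEquiv.norm_map]
  rw [e1, h, e2, e3, e4]

lemma costE_rot {E : Type*} [PseudoEMetricSpace E] (a b c : E) : costE b c a = costE a b c := by
  unfold costE
  rw [edist_comm b a, edist_comm c a]
  ring

section meas

variable [FiniteDimensional ℝ E] [MeasurableSpace E] [BorelSpace E]

lemma contY : Continuous S.Y := S.hY.choose_spec.continuous
lemma contZ : Continuous S.Z := S.hZ.choose_spec.continuous
lemma conttY : Continuous S.tY := S.htY.choose_spec.continuous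
lemma conttZ : Continuous S.tZ := S.htZ.choose_spec.continuous
lemma conty' : Continuous S.y' := S.ρ.continuous.comp (S.contY.comp S.ρ.continuous)
lemma contz' : Continuous S.z' := S.ρ.continuous.comp (S.contZ.comp S.ρ.continuous)

lemma meas_phiZ : Measurable S.phiZ := by
  unfold phiZ coul phiX phiY
  have h1 := S.conttZ.measurable
  have h2 := (S.contY.comp S.conttZ).measurable
  have h3 : Continuous (fun p : E => inner ℝ S.e (S.Y (S.tZ p) - S.e)) :=
    continuous_const.inner ((S.contY.comp S.conttZ).sub continuous_const)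
  have h3' := h3.measurable
  have h4 : Measurable (fun p : E => ‖S.tZ p - S.Y (S.tZ p)‖⁻¹) := (h1.sub h2).norm.inv
  have h5 : Measurable (fun p : E => ‖S.tZ p - p‖⁻¹) := (h1.sub measurable_id).norm.inv
  have h6 : Measurable (fun p : E => ‖S.Y (S.tZ p) - p‖⁻¹) := (h2.sub measurable_id).norm.inv
  have h7 : Measurable (fun p : E => ‖S.tZ p‖ ^ 2) := h1.norm.pow_const 2
  have h8 : Measurable (fun p : E => ‖S.Y (S.tZ p) - S.e‖ ^ 2) :=
    ((h2.sub measurable_const).norm).pow_const 2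
  exact (((h4.add h5).add h6).sub (measurable_const.sub (measurable_const.mul h7))).sub
    ((measurable_const.sub (measurable_const.mul h3')).sub (measurable_const.mul h8))

lemma meas_phiY : Measurable (phiY S.e) := by
  unfold phiY
  have h3 : Continuous (fun y : E => inner ℝ S.e (y - S.e)) :=
    continuous_const.inner (continuous_id.sub continuous_const)
  have : Continuous (fun y : E => 1 / 2 - 5 / 4 * inner ℝ S.e (y - S.e) - 500 * ‖y - S.e‖ ^ 2) := by
    fun_prop
  exact this.measurable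

lemma meas_phiX : Measurable (phiX : E → ℝ) := by
  unfold phiX
  have : Continuous (fun x : E => 3 / 2 - 500 * ‖x‖ ^ 2) := by fun_prop
  exact this.measurable

lemma meas_pot : Measurable S.pot := by
  have hρ : Measurable S.ρ := S.ρ.continuous.measurable
  have c1 : MeasurableSet {p : E | ‖p‖ ≤ 1 / 10} :=
    (isClosed_le continuous_norm continuous_const).measurableSet
  have c2 : MeasurableSet {p : E | ‖p - S.e‖ ≤ 1 / 10} :=
    (isClosed_le (continuous_id.sub continuous_const).norm continuous_const).measurableSet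
  have c3 : MeasurableSet {p : E | ‖p + S.e‖ ≤ 1 / 10} :=
    (isClosed_le (continuous_id.add continuous_const).norm continuous_const).measurableSet
  have c4 : MeasurableSet {p : E | ‖p - S.f‖ ≤ 1 / 10} :=
    (isClosed_le (continuous_id.sub continuous_const).norm continuous_const).measurableSet
  unfold pot
  exact Measurable.ite c1 meas_phiX (Measurable.ite c2 S.meas_phiY (Measurable.ite c3 S.meas_phiZ
    (Measurable.ite c4 (S.meas_phiY.comp hρ) (S.meas_phiZ.comp hρ))))

lemma meas_psi : Measurable S.psi := S.meas_pot.ennreal_ofReal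

lemma meas_cost : Measurable (fun p : E × E × E => costE p.1 p.2.1 p.2.2) := by
  unfold costE
  have m1 : Measurable (fun p : E × E × E => p.1) := measurable_fst
  have m2 : Measurable (fun p : E × E × E => p.2.1) := measurable_fst.comp measurable_snd
  have m3 : Measurable (fun p : E × E × E => p.2.2) := measurable_snd.comp measurable_snd
  exact (((m1.edist m2).inv).add ((m1.edist m3).inv)).add ((m2.edist m3).inv)

end meas

end Setup

end Vale.Agent.P121
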