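import Vale.Agent.P121.Branch

/-! Existence of balanced configurations by a contraction argument. -/

namespace Vale.Agent.P121

open Metric Set

variable {E : Type*} [NormedAddCommGroup E] [InnerProductSpace ℝ E]

noncomputable def wv (x y : E) : E := (1000 : ℝ) • x - frc (x - y)

noncomputable def zv (x y : E) : E := x - frcInv (wv x y)

noncomputable def stepY (e x y : E) : E :=
  e + (1 / 1000 : ℝ) • (-((5 / 4 : ℝ) • e) + frc (y - x) + frc (y - zv x y))

lemma frc_unit {e : E} (he : ‖e‖ = 1) : frc e = e := by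
  simp [frc, he]

lemma frc_two {e : E} (he : ‖e‖ = 1) : frc ((2 : ℝ) • e) = (1 / 4 : ℝ) • e := by
  simp only [frc, norm_smul, he, smul_smul]
  norm_num

/-- All the region estimates. -/
lemma region {e x y : E} (he : ‖e‖ = 1) (hx : ‖x‖ ≤ 1 / 10 ^ 6) (hy : ‖y - e‖ ≤ 1 / 1000) :
    9 / 10 ≤ ‖x - y‖ ∧ ‖x - y‖ ≤ 11 / 10 ∧ wv x y ≠ 0 ∧
    9 / 10 ≤ ‖frcInv (wv x y)‖ ∧ ‖frcInv (wv x y)‖ ≤ 11 / 10 ∧
    ‖zv x y + e‖ ≤ 8 / 1000 ∧ 19 / 10 ≤ ‖y - zv x y‖ ∧ ‖y - zv x y‖ ≤ 21 / 10 ∧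
    ‖(y - zv x y) - (2 : ℝ) • e‖ ≤ 9 / 1000 := by
  have a1 : ‖x - y‖ ≤ 1 + 1 / 10 ^ 6 + 1 / 1000 := by
    have : x - y = x - (y - e) - e := by abel
    rw [this]
    have := norm_sub_le (x - (y - e)) e
    have := norm_sub_le x (y - e)
    linarith
  have a2 : 1 - 1 / 10 ^ 6 - 1 / 1000 ≤ ‖x - y‖ := by
    have h1 : e = -(x - y) + x - (y - e) := by abel
    have h2 : ‖e‖ ≤ ‖x - y‖ + ‖x‖ + ‖y - e‖ := by
      nth_rewrite 1 [h1]
      refine (norm_sub_le _ _).trans ?_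
      have := norm_add_le (-(x - y)) x
      rw [norm_neg] at this
      linarith
    linarith
  have b1 : 9 / 10 ≤ ‖x - y‖ := by norm_num at a2; linarith
  have b2 : ‖x - y‖ ≤ 11 / 10 := by norm_num at a1; linarith
  have hne : ‖-e‖ = 1 := by rw [norm_neg, he]
  have c1 : ‖wv x y - e‖ ≤ 1 / 200 := by
    have h1 : wv x y - e = (1000 : ℝ) • x - (frc (x - y) - frc (-e)) := by
      rw [frc_unit hne]; unfold wv; abel
    have h2 := frc_upper (x - y) (-e) (r := 9 / 10) (by norm_num) b1 (by rw [hne]; norm_num)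
    have h3 : ‖(x - y) - (-e)‖ ≤ ‖x‖ + ‖y - e‖ := by
      rw [show (x - y) - (-e) = x - (y - e) by abel]
      exact norm_sub_le _ _
    rw [h1]
    refine (norm_sub_le _ _).trans ?_
    rw [norm_smul]
    rw [sub_neg_eq_add] at h2 h3
    norm_num at h2 hx hy ⊢
    linarith
  have c2 : ‖wv x y‖ ≤ 201 / 200 := by
    have := norm_add_le (wv x y - e) e
    rw [sub_add_cancel] at this
    linarith
  have c3 : 199 / 200 ≤ ‖wv x y‖ := by
    have := norm_sub_le (wv x y) (wv x y - e)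
    rw [sub_sub_cancel] at this
    linarith
  have w0 : wv x y ≠ 0 := norm_pos_iff.mp (by linarith)
  have d0 := norm_frcInv (wv x y) w0
  have d1 : ‖frcInv (wv x y)‖ ^ 2 * ‖wv x y‖ = 1 := by
    have hs : 0 < Real.sqrt ‖wv x y‖ := Real.sqrt_pos.mpr (by linarith)
    have hsq : Real.sqrt ‖wv x y‖ ^ 2 = ‖wv x y‖ := Real.sq_sqrt (by linarith)
    rw [d0]
    nth_rewrite 2 [← hsq]
    field_simp
  have u0 := norm_nonneg (frcInv (wv x y))
  have d2 : 9 / 10 ≤ ‖frcInv (wv x y)‖ := by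
    by_contra hcon
    push Not at hcon
    nlinarith
  have d3 : ‖frcInv (wv x y)‖ ≤ 11 / 10 := by
    by_contra hcon
    push Not at hcon
    nlinarith
  have d4 : ‖frcInv (wv x y) - e‖ ≤ 7 / 1000 := by
    have := frc_lower (frcInv (wv x y)) e (r := 11 / 10) (by norm_num)
      (norm_pos_iff.mp (by linarith)) (norm_pos_iff.mp (by linarith)) d3 (by linarith)
    rw [frc_frcInv _ w0, frc_unit he] at this
    norm_num at this
    linarith
  have z1 : ‖zv x y + e‖ ≤ 8 / 1000 := by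
    have : zv x y + e = x - (frcInv (wv x y) - e) := by unfold zv; abel
    rw [this]
    refine (norm_sub_le _ _).trans ?_
    norm_num at hx
    linarith
  have z2 : ‖(y - zv x y) - (2 : ℝ) • e‖ ≤ 9 / 1000 := by
    have : (y - zv x y) - (2 : ℝ) • e = (y - e) - (zv x y + e) := by
      rw [two_smul]; abel
    rw [this]
    refine (norm_sub_le _ _).trans ?_
    linarith
  have n2 : ‖(2 : ℝ) • e‖ = 2 := by rw [norm_smul, he]; norm_num
  have z3 : ‖y - zv x y‖ ≤ 21 / 10 := by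
    have := norm_add_le ((y - zv x y) - (2 : ℝ) • e) ((2 : ℝ) • e)
    rw [sub_add_cancel] at this
    linarith
  have z4 : 19 / 10 ≤ ‖y - zv x y‖ := by
    have := norm_sub_le (y - zv x y) ((y - zv x y) - (2 : ℝ) • e)
    rw [sub_sub_cancel] at this
    linarith
  exact ⟨b1, b2, w0, d2, d3, z1, z4, z3, z2⟩

lemma stepY_maps {e x y : E} (he : ‖e‖ = 1) (hx : ‖x‖ ≤ 1 / 10 ^ 6) (hy : ‖y - e‖ ≤ 1 / 1000) :
    ‖stepY e x y - e‖ ≤ 1 / 1000 := by
  obtain ⟨b1, b2, w0, d2, d3, z1, z4, z3, z2⟩ := region he hx hy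
  have n2 : ‖(2 : ℝ) • e‖ = 2 := by rw [norm_smul, he]; norm_num
  have h1 : stepY e x y - e
      = (1 / 1000 : ℝ) • ((frc (y - x) - frc e) + (frc (y - zv x y) - frc ((2 : ℝ) • e))) := by
    rw [frc_unit he, frc_two he]
    unfold stepY
    rw [add_sub_cancel_left]
    congr 1
    have : (5 / 4 : ℝ) • e = e + (1 / 4 : ℝ) • e := by
      nth_rewrite 2 [← one_smul ℝ e]
      rw [← add_smul]; norm_num
    rw [this]; abel
  have f1 := frc_upper (y - x) e (r := 9 / 10) (by norm_num)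
    (by rw [norm_sub_rev]; exact b1) (by rw [he]; norm_num)
  have f2 := frc_upper (y - zv x y) ((2 : ℝ) • e) (r := 19 / 10) (by norm_num) z4
    (by rw [n2]; norm_num)
  have f3 : ‖y - x - e‖ ≤ 1 / 1000 + 1 / 10 ^ 6 := by
    rw [show y - x - e = (y - e) - x by abel]
    exact (norm_sub_le _ _).trans (by linarith)
  rw [h1, norm_smul]
  have f4 := norm_add_le (frc (y - x) - frc e) (frc (y - zv x y) - frc ((2 : ℝ) • e))
  norm_num at f1 f2 f3 ⊢
  linarith

lemma stepY_contr {e x y y' : E} (he : ‖e‖ = 1) (hx : ‖x‖ ≤ 1 / 10 ^ 6)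
    (hy : ‖y - e‖ ≤ 1 / 1000) (hy' : ‖y' - e‖ ≤ 1 / 1000) :
    ‖stepY e x y - stepY e x y'‖ ≤ 1 / 2 * ‖y - y'‖ := by
  obtain ⟨b1, b2, w0, d2, d3, z1, z4, z3, z2⟩ := region he hx hy
  obtain ⟨b1', b2', w0', d2', d3', z1', z4', z3', z2'⟩ := region he hx hy'
  have h1 : stepY e x y - stepY e x y'
      = (1 / 1000 : ℝ) • ((frc (y - x) - frc (y' - x))
        + (frc (y - zv x y) - frc (y' - zv x y'))) := by
    unfold stepY
    rw [add_sub_add_left_eq_sub, ← smul_sub]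
    congr 1
    abel
  have f1 := frc_upper (y - x) (y' - x) (r := 9 / 10) (by norm_num)
    (by rw [norm_sub_rev]; exact b1) (by rw [norm_sub_rev]; exact b1')
  rw [show (y - x) - (y' - x) = y - y' by abel] at f1
  have f2 := frc_upper (y - zv x y) (y' - zv x y') (r := 19 / 10) (by norm_num) z4 z4'
  have f3 : ‖(y - zv x y) - (y' - zv x y')‖ ≤ ‖y - y'‖ + ‖zv x y - zv x y'‖ := by
    rw [show (y - zv x y) - (y' - zv x y') = (y - y') - (zv x y - zv x y') by abel]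
    exact norm_sub_le _ _
  have f4 : ‖zv x y - zv x y'‖ = ‖frcInv (wv x y) - frcInv (wv x y')‖ := by
    unfold zv
    rw [sub_sub_sub_cancel_left, norm_sub_rev]
  have f5 := frc_lower (frcInv (wv x y)) (frcInv (wv x y')) (r := 11 / 10) (by norm_num)
    (norm_pos_iff.mp (by linarith)) (norm_pos_iff.mp (by linarith)) d3 d3'
  rw [frc_frcInv _ w0, frc_frcInv _ w0'] at f5
  have f6 : ‖wv x y - wv x y'‖ = ‖frc (x - y) - frc (x - y')‖ := by
    unfold wv
    rw [sub_sub_sub_cancel_left, norm_sub_rev]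
  have f7 := frc_upper (x - y) (x - y') (r := 9 / 10) (by norm_num) b1 b1'
  rw [sub_sub_sub_cancel_left, norm_sub_rev y' y] at f7
  have f8 := norm_add_le (frc (y - x) - frc (y' - x)) (frc (y - zv x y) - frc (y' - zv x y'))
  rw [h1, norm_smul]
  rw [f6] at f5
  rw [f4] at f3
  have n0 := norm_nonneg (y - y')
  norm_num at f1 f2 f3 f5 f7 ⊢
  linarith

lemma cfg_of_fixed {e x y : E} (he : ‖e‖ = 1) (hx : ‖x‖ ≤ 1 / 10 ^ 6)
    (hy : ‖y - e‖ ≤ 1 / 1000) (hfix : stepY e x y = y) : IsCfg e x y (zv x y) := by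
  obtain ⟨b1, b2, w0, d2, d3, z1, z4, z3, z2⟩ := region he hx hy
  have hxz : x - zv x y = frcInv (wv x y) := by unfold zv; abel
  refine ⟨b1, b2, by rw [hxz]; exact d2, by rw [hxz]; exact d3, z4, z3, ?_, ?_⟩
  · rw [hxz, frc_frcInv _ w0]
    unfold wv
    abel
  · have h1 : y - e = (1 / 1000 : ℝ) • (-((5 / 4 : ℝ) • e) + frc (y - x) + frc (y - zv x y)) := by
      nth_rewrite 1 [← hfix]
      unfold stepY
      rw [add_sub_cancel_left]
    rw [h1, smul_smul]
    norm_num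

variable [CompleteSpace E]

lemma exists_cfg {e x : E} (he : ‖e‖ = 1) (hx : ‖x‖ ≤ 1 / 10 ^ 6) :
    ∃ y z : E, ‖y - e‖ ≤ 1 / 1000 ∧ ‖z + e‖ ≤ 8 / 1000 ∧ IsCfg e x y z := by
  have hmaps : MapsTo (stepY e x) (closedBall e (1 / 1000)) (closedBall e (1 / 1000)) := by
    intro y hy
    rw [mem_closedBall, dist_eq_norm] at hy ⊢
    exact stepY_maps he hx hy
  have hcontr : ContractingWith (1 / 2) (hmaps.restrict (stepY e x) _ _) := by
    refine ⟨by norm_num, ?_⟩
    apply LipschitzWith.of_dist_le_mul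
    rintro ⟨y, hy⟩ ⟨y', hy'⟩
    rw [mem_closedBall, dist_eq_norm] at hy hy'
    rw [Subtype.dist_eq, Subtype.dist_eq]
    simp only [MapsTo.val_restrict_apply]
    rw [dist_eq_norm, dist_eq_norm]
    have := stepY_contr he hx hy hy'
    simpa using this
  obtain ⟨y, hy, hfix, -⟩ := hcontr.exists_fixedPoint' isClosed_closedBall.isComplete hmaps
    (x := e) (by simp) (edist_ne_top _ _)
  rw [mem_closedBall, dist_eq_norm] at hy
  have hc := cfg_of_fixed he hx hy hfix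
  obtain ⟨b1, b2, w0, d2, d3, z1, z4, z3, z2⟩ := region he hx hy
  exact ⟨y, zv x y, hy, z1, hc⟩

end Vale.Agent.P121
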