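import Vale.Agent.P121.Main
import Vale.Agent.P121.Defs

/-! Assembly of the counterexample. -/

namespace Vale.Agent.P121

open MeasureTheory Set Metric
open scoped ENNReal NNReal

lemma exists_setup {E : Type*} [NormedAddCommGroup E] [InnerProductSpace ℝ E]
    [FiniteDimensional ℝ E] {e f : E} (he : ‖e‖ = 1) (hf : ‖f‖ = 1)
    (hef : inner ℝ e f = (0 : ℝ)) : Nonempty (Setup E) := by
  obtain ⟨Y, Z, tY, tZ, hY, hZ, htY, htZ, spec⟩ := exists_branch he
  exact ⟨{
    e := e
    f := f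
    he := he
    hf := hf
    hef := hef
    ρ := (Submodule.span ℝ {e - f})ᗮ.reflection
    ρe := Submodule.reflection_sub (by rw [he, hf])
    ρρ := fun x => Submodule.reflection_reflection _ x
    Y := Y
    Z := Z
    tY := tY
    tZ := tZ
    hY := hY
    hZ := hZ
    htY := htY
    htZ := htZ
    spec := spec }⟩

theorem counterexample (d : ℕ) (hd : 2 ≤ d) :
    ∃ μ : Measure (EuclideanSpace ℝ (Fin d)), IsProbabilityMeasure μ ∧
      μ ≪ volume ∧ (∃ C : ℝ≥0, μ ≤ C • volume) ∧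
      (∃ K : Set (EuclideanSpace ℝ (Fin d)), IsCompact K ∧ μ Kᶜ = 0) ∧
      kantorovichValue μ < ∞ ∧ ¬ HasOptimalMongePlan μ := by
  let i : Fin d := ⟨0, by omega⟩
  let j : Fin d := ⟨1, by omega⟩
  have hij : i ≠ j := by
    intro h
    have := congrArg Fin.val h
    simp [i, j] at this
  obtain ⟨S⟩ := exists_setup (E := EuclideanSpace ℝ (Fin d)) (e := EuclideanSpace.single i (1 : ℝ))
    (f := EuclideanSpace.single j (1 : ℝ)) (by simp) (by simp) (by
      simp [EuclideanSpace.inner_single_left, hij])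
  obtain ⟨C, hC⟩ := S.mu_le (volume : Measure (EuclideanSpace ℝ (Fin d)))
  have hk : ∀ μ : Measure (EuclideanSpace ℝ (Fin d)), kantorovichValue μ = kant μ := fun _ => rfl
  refine ⟨S.mu volume, S.mu_prob volume, ?_, ⟨C, hC⟩, ⟨S.D, S.D_compact, ?_⟩, ?_, ?_⟩
  · refine Measure.absolutelyContinuous_of_le_smul (c := (C : ℝ≥0∞)) ?_
    exact hC
  · have := S.mu_D (volume : Measure (EuclideanSpace ℝ (Fin d)))
    rw [ae_iff] at this
    exact this
  · rw [hk, S.kant_eq volume]
    exact lt_top_iff_ne_top.mpr (S.val_ne_top volume)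
  · rintro ⟨T2, T3, hT2, hT3, m2, m3, hopt⟩
    exact S.no_monge volume hT2 hT3 m2 m3 hopt

end Vale.Agent.P121
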