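import Vale.Agent.P121.Potential

/-! The energy gap inequality and the contact set. -/

namespace Vale.Agent.P121

open Metric Set NNReal

namespace Setup

variable {E : Type*} [NormedAddCommGroup E] [InnerProductSpace ℝ E] (S : Setup E)

lemma ctr_sep {ℓ m : Fin 5} (hlm : ℓ ≠ m) : 1 ≤ ‖S.ctr ℓ - S.ctr m‖ := by
  have sq1 : ‖S.e - S.f‖ ^ 2 = 2 := by
    rw [norm_sub_sq_real, S.he, S.hf, S.hef]; norm_num
  have sq2 : ‖S.e + S.f‖ ^ 2 = 2 := by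
    rw [norm_add_sq_real, S.he, S.hf, S.hef]; norm_num
  have a1 : 1 ≤ ‖S.e - S.f‖ := by nlinarith [norm_nonneg (S.e - S.f)]
  have a2 : 1 ≤ ‖S.e + S.f‖ := by nlinarith [norm_nonneg (S.e + S.f)]
  have b1 : 1 ≤ ‖S.e + S.e‖ := by
    have : S.e + S.e = (2 : ℝ) • S.e := by rw [two_smul]
    rw [this, norm_smul, S.he]; norm_num
  have b2 : 1 ≤ ‖S.f + S.f‖ := by
    have : S.f + S.f = (2 : ℝ) • S.f := by rw [two_smul]
    rw [this, norm_smul, S.hf]; norm_num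
  have c1 := S.he
  have c2 := S.hf
  have n1 : ‖-S.e - S.e‖ = ‖S.e + S.e‖ := by rw [← norm_neg]; congr 1; abel
  have n2 : ‖-S.f - S.f‖ = ‖S.f + S.f‖ := by rw [← norm_neg]; congr 1; abel
  have n3 : ‖-S.e - S.f‖ = ‖S.e + S.f‖ := by rw [← norm_neg]; congr 1; abel
  have n4 : ‖-S.f - S.e‖ = ‖S.e + S.f‖ := by rw [← norm_neg]; congr 1; abel
  have n5 : ‖-S.e + S.f‖ = ‖S.e - S.f‖ := by rw [← norm_neg]; congr 1; abel
  have n6 : ‖-S.f + S.e‖ = ‖S.e - S.f‖ := by congr 1; abel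
  have n7 : ‖S.f - S.e‖ = ‖S.e - S.f‖ := norm_sub_rev _ _
  have n8 : ‖S.f + S.e‖ = ‖S.e + S.f‖ := by congr 1; abel
  fin_cases ℓ <;> fin_cases m <;> first
    | exact (hlm rfl).elim
    | (simp [ctr, c1, c2]; done)
    | (simp [ctr, n1, n2, n3, n4, n5, n6, n7, n8]; assumption)
    | (simp [ctr, n1, n2, n3, n4, n5, n6, n7, n8])

/-- The pieces of the potential. -/
noncomputable def potL : Fin 5 → E → ℝ :=
  ![fun p => phiX p, fun p => phiY S.e p, fun p => S.phiZ p, fun p => phiY S.e (S.ρ p),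
    fun p => S.phiZ (S.ρ p)]

lemma pot_eq (ℓ : Fin 5) {p : E} (h : ‖p - S.ctr ℓ‖ ≤ 1 / 10) : S.pot p = S.potL ℓ p := by
  have key : ∀ m : Fin 5, ℓ ≠ m → ¬ ‖p - S.ctr m‖ ≤ 1 / 10 := by
    intro m hm hcon
    have h1 := S.ctr_sep hm
    have h2 : S.ctr ℓ - S.ctr m = (p - S.ctr m) - (p - S.ctr ℓ) := by abel
    rw [h2] at h1
    have h3 := norm_sub_le (p - S.ctr m) (p - S.ctr ℓ)
    linarith
  have k0 := key 0
  have k1 := key 1
  have k2 := key 2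
  have k3 := key 3
  have k4 := key 4
  have hc0 : S.ctr 0 = 0 := rfl
  have hc1 : S.ctr 1 = S.e := rfl
  have hc2 : S.ctr 2 = -S.e := rfl
  have hc3 : S.ctr 3 = S.f := rfl
  have hc4 : S.ctr 4 = -S.f := rfl
  rw [hc0, sub_zero] at k0
  rw [hc1] at k1
  rw [hc2, sub_neg_eq_add] at k2
  rw [hc3] at k3
  rw [hc4, sub_neg_eq_add] at k4
  unfold pot
  fin_cases ℓ
  · change ‖p - 0‖ ≤ 1 / 10 at h
    rw [sub_zero] at h
    rw [if_pos h]; rfl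
  · change ‖p - S.e‖ ≤ 1 / 10 at h
    rw [if_neg (k0 (by decide)), if_pos h]; rfl
  · change ‖p - (-S.e)‖ ≤ 1 / 10 at h
    rw [sub_neg_eq_add] at h
    rw [if_neg (k0 (by decide)), if_neg (k1 (by decide)), if_pos h]; rfl
  · change ‖p - S.f‖ ≤ 1 / 10 at h
    rw [if_neg (k0 (by decide)), if_neg (k1 (by decide)), if_neg (k2 (by decide)), if_pos h]; rfl
  · rw [if_neg (k0 (by decide)), if_neg (k1 (by decide)), if_neg (k2 (by decide)),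
      if_neg (k3 (by decide))]; rfl

lemma pot_w (ℓ : Fin 5) {t : E} (ht : t ∈ (B : Set E)) : S.pot (S.w ℓ t) = S.potL ℓ (S.w ℓ t) :=
  S.pot_eq ℓ ((S.near ℓ ht).trans (by norm_num))

lemma phiZ_Z {t : E} (ht : t ∈ (B : Set E)) :
    S.phiZ (S.Z t) = coul t (S.Y t) (S.Z t) - phiX t - phiY S.e (S.Y t) := by
  unfold phiZ
  rw [(S.spec t ht).2.2.2.2]

lemma pot0 {t : E} (ht : t ∈ (B : Set E)) : S.pot t = phiX t := S.pot_w 0 ht

lemma pot1 {t : E} (ht : t ∈ (B : Set E)) : S.pot (S.Y t) = phiY S.e (S.Y t) := S.pot_w 1 ht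

lemma pot2 {t : E} (ht : t ∈ (B : Set E)) :
    S.pot (S.Z t) = coul t (S.Y t) (S.Z t) - phiX t - phiY S.e (S.Y t) :=
  (S.pot_w 2 ht).trans (S.phiZ_Z ht)

lemma pot3 {t : E} (ht : t ∈ (B : Set E)) :
    S.pot (S.ρ (S.Y (S.ρ t))) = phiY S.e (S.Y (S.ρ t)) := by
  have := S.pot_w 3 ht
  change S.pot (S.ρ (S.Y (S.ρ t))) = phiY S.e (S.ρ (S.ρ (S.Y (S.ρ t)))) at this
  rwa [S.ρρ] at this

lemma pot4 {t : E} (ht : t ∈ (B : Set E)) :
    S.pot (S.ρ (S.Z (S.ρ t))) = coul (S.ρ t) (S.Y (S.ρ t)) (S.Z (S.ρ t)) - phiX (S.ρ t)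
      - phiY S.e (S.Y (S.ρ t)) := by
  have := S.pot_w 4 ht
  change S.pot (S.ρ (S.Z (S.ρ t))) = S.phiZ (S.ρ (S.ρ (S.Z (S.ρ t)))) at this
  rw [S.ρρ, S.phiZ_Z (S.ρB ht)] at this
  exact this

lemma phiX_bd {t : E} (ht : t ∈ (B : Set E)) : 1499 / 1000 ≤ phiX t ∧ phiX t ≤ 1500 / 1000 := by
  have h1 : ‖t‖ ≤ 1 / 10 ^ 6 := ht
  have h0 := norm_nonneg t
  unfold phiX
  constructor
  · norm_num at h1
    nlinarith
  · nlinarith [sq_nonneg ‖t‖]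

lemma phiY_bd {t : E} (ht : t ∈ (B : Set E)) :
    498 / 1000 ≤ phiY S.e (S.Y t) ∧ phiY S.e (S.Y t) ≤ 502 / 1000 := by
  have h1 := (S.spec t ht).1
  have h0 := norm_nonneg (S.Y t - S.e)
  have h2 := abs_real_inner_le_norm S.e (S.Y t - S.e)
  rw [S.he, one_mul] at h2
  have h3 := abs_le.mp h2
  unfold phiY
  constructor
  · nlinarith
  · nlinarith [sq_nonneg ‖S.Y t - S.e‖]

lemma phiZ_bd {t : E} (ht : t ∈ (B : Set E)) :
    0 ≤ coul t (S.Y t) (S.Z t) - phiX t - phiY S.e (S.Y t) ∧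
    coul t (S.Y t) (S.Z t) - phiX t - phiY S.e (S.Y t) ≤ 520 / 1000 := by
  have h1 := (S.spec t ht).1
  have h2 := (S.spec t ht).2.1
  have ht' : ‖t‖ ≤ 1 / 10 ^ 6 := ht
  have a1 := phiX_bd ht
  have a2 := S.phiY_bd ht
  have n2 : ‖(2 : ℝ) • S.e‖ = 2 := by rw [norm_smul, S.he]; norm_num
  have d1 : ‖t - S.Y t‖ ≤ 1 + 2 / 1000 ∧ 1 - 2 / 1000 ≤ ‖t - S.Y t‖ := by
    have e1 : t - S.Y t = t - (S.Y t - S.e) - S.e := by abel
    have e2 : S.e = t - (S.Y t - S.e) - (t - S.Y t) := by abel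
    constructor
    · rw [e1]
      have := norm_sub_le (t - (S.Y t - S.e)) S.e
      have := norm_sub_le t (S.Y t - S.e)
      have := S.he
      norm_num at ht'
      linarith
    · have h3 := norm_sub_le (t - (S.Y t - S.e)) (t - S.Y t)
      rw [← e2, S.he] at h3
      have := norm_sub_le t (S.Y t - S.e)
      norm_num at ht'
      linarith
  have d2 : ‖t - S.Z t‖ ≤ 1 + 9 / 1000 ∧ 1 - 9 / 1000 ≤ ‖t - S.Z t‖ := by
    have e1 : t - S.Z t = t - (S.Z t + S.e) + S.e := by abel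
    have e2 : S.e = (t - S.Z t) - (t - (S.Z t + S.e)) := by abel
    constructor
    · rw [e1]
      have := norm_add_le (t - (S.Z t + S.e)) S.e
      have := norm_sub_le t (S.Z t + S.e)
      have := S.he
      norm_num at ht'
      linarith
    · have h3 := norm_sub_le (t - S.Z t) (t - (S.Z t + S.e))
      rw [← e2, S.he] at h3
      have := norm_sub_le t (S.Z t + S.e)
      norm_num at ht'
      linarith
  have d3 : ‖S.Y t - S.Z t‖ ≤ 2 + 10 / 1000 ∧ 2 - 10 / 1000 ≤ ‖S.Y t - S.Z t‖ := by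
    have e1 : S.Y t - S.Z t = (S.Y t - S.e) - (S.Z t + S.e) + (2 : ℝ) • S.e := by
      rw [two_smul]; abel
    have e2 : (2 : ℝ) • S.e = (S.Y t - S.Z t) - ((S.Y t - S.e) - (S.Z t + S.e)) := by
      rw [two_smul]; abel
    constructor
    · rw [e1]
      have := norm_add_le ((S.Y t - S.e) - (S.Z t + S.e)) ((2 : ℝ) • S.e)
      have := norm_sub_le (S.Y t - S.e) (S.Z t + S.e)
      linarith
    · have h3 := norm_sub_le (S.Y t - S.Z t) ((S.Y t - S.e) - (S.Z t + S.e))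
      rw [← e2, n2] at h3
      have := norm_sub_le (S.Y t - S.e) (S.Z t + S.e)
      linarith
  have i1 : (1 + 2 / 1000 : ℝ)⁻¹ ≤ ‖t - S.Y t‖⁻¹ ∧ ‖t - S.Y t‖⁻¹ ≤ (1 - 2 / 1000 : ℝ)⁻¹ :=
    ⟨inv_anti₀ (by linarith) d1.1, inv_anti₀ (by norm_num) d1.2⟩
  have i2 : (1 + 9 / 1000 : ℝ)⁻¹ ≤ ‖t - S.Z t‖⁻¹ ∧ ‖t - S.Z t‖⁻¹ ≤ (1 - 9 / 1000 : ℝ)⁻¹ :=
    ⟨inv_anti₀ (by linarith) d2.1, inv_anti₀ (by norm_num) d2.2⟩
  have i3 : (2 + 10 / 1000 : ℝ)⁻¹ ≤ ‖S.Y t - S.Z t‖⁻¹ ∧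
      ‖S.Y t - S.Z t‖⁻¹ ≤ (2 - 10 / 1000 : ℝ)⁻¹ :=
    ⟨inv_anti₀ (by linarith) d3.1, inv_anti₀ (by norm_num) d3.2⟩
  unfold coul
  norm_num at i1 i2 i3 ⊢
  constructor <;> linarith

lemma pot_bd (ℓ : Fin 5) {t : E} (ht : t ∈ (B : Set E)) :
    0 ≤ S.pot (S.w ℓ t) ∧ S.pot (S.w ℓ t) ≤ (s ℓ : ℝ) / 1000 := by
  have h0 := phiX_bd ht
  have h1 := S.phiY_bd ht
  have h2 := S.phiZ_bd ht
  have h1' := S.phiY_bd (S.ρB ht)
  have h2' := S.phiZ_bd (S.ρB ht)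
  fin_cases ℓ
  · change 0 ≤ S.pot t ∧ S.pot t ≤ ((1500 : ℕ) : ℝ) / 1000
    rw [S.pot0 ht]; norm_num at h0 ⊢
    constructor <;> linarith
  · change 0 ≤ S.pot (S.Y t) ∧ S.pot (S.Y t) ≤ ((520 : ℕ) : ℝ) / 1000
    rw [S.pot1 ht]; norm_num at h1 ⊢
    constructor <;> linarith
  · change 0 ≤ S.pot (S.Z t) ∧ S.pot (S.Z t) ≤ ((520 : ℕ) : ℝ) / 1000
    rw [S.pot2 ht]; norm_num at h2 ⊢
    constructor <;> linarith
  · change 0 ≤ S.pot (S.ρ (S.Y (S.ρ t))) ∧ S.pot (S.ρ (S.Y (S.ρ t))) ≤ ((520 : ℕ) : ℝ) / 1000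
    rw [S.pot3 ht]; norm_num at h1' ⊢
    constructor <;> linarith
  · change 0 ≤ S.pot (S.ρ (S.Z (S.ρ t))) ∧ S.pot (S.ρ (S.Z (S.ρ t))) ≤ ((520 : ℕ) : ℝ) / 1000
    rw [S.pot4 ht]; norm_num at h2' ⊢
    constructor <;> linarith

/-- Energy gap. -/
noncomputable def gap (a b c : E) : ℝ := coul a b c - S.pot a - S.pot b - S.pot c

lemma gap12 (a b c : E) : S.gap b a c = S.gap a b c := by
  unfold gap; rw [coul_swap12]; ring

lemma gap23 (a b c : E) : S.gap a c b = S.gap a b c := by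
  unfold gap; rw [coul_swap23]; ring

/-- The core case. -/
lemma gap_core {a t t' : E} (ha : a ∈ (B : Set E)) (ht : t ∈ (B : Set E)) (ht' : t' ∈ (B : Set E))
    (h1 : a ≠ S.Y t') (h2 : a ≠ S.Z t) (h3 : S.Y t' ≠ S.Z t) :
    ‖a - t‖ ^ 2 + ‖S.Y t' - S.Y t‖ ^ 2 ≤ S.gap a (S.Y t') (S.Z t) := by
  have h := (S.spec t ht).2.2.1.minim a (S.Y t') h1 h2 h3
  unfold gap
  rw [S.pot0 ha, S.pot1 ht', S.pot2 ht]
  linarith

/-- A triple lying on a branch, in the order (centre, second, third). -/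
def OnBranch (x y z : E) : Prop :=
  x ∈ (B : Set E) ∧ ((y = S.Y x ∧ z = S.Z x) ∨ (y = S.ρ (S.Y (S.ρ x)) ∧ z = S.ρ (S.Z (S.ρ x))))

/-- Contact triples. -/
def Contact (a b c : E) : Prop :=
  S.OnBranch a b c ∨ S.OnBranch a c b ∨ S.OnBranch b a c ∨ S.OnBranch b c a ∨
    S.OnBranch c a b ∨ S.OnBranch c b a

lemma core_S {a t t' : E} (ha : a ∈ (B : Set E)) (ht : t ∈ (B : Set E)) (ht' : t' ∈ (B : Set E))
    (h1 : a ≠ S.Y t') (h2 : a ≠ S.Z t) (h3 : S.Y t' ≠ S.Z t) :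
    0 ≤ S.gap a (S.Y t') (S.Z t) ∧
      (S.gap a (S.Y t') (S.Z t) = 0 → S.OnBranch a (S.Y t') (S.Z t)) := by
  have h := S.gap_core ha ht ht' h1 h2 h3
  have q1 := sq_nonneg ‖a - t‖
  have q2 := sq_nonneg ‖S.Y t' - S.Y t‖
  refine ⟨by linarith, fun h0 => ?_⟩
  have e1 : ‖a - t‖ ^ 2 = 0 := by linarith
  have e2 : ‖S.Y t' - S.Y t‖ ^ 2 = 0 := by linarith
  have e1' : a = t := by
    rw [← sub_eq_zero, ← norm_eq_zero]; exact pow_eq_zero_iff (two_ne_zero) |>.mp e1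
  have e2' : S.Y t' = S.Y t := by
    rw [← sub_eq_zero, ← norm_eq_zero]; exact pow_eq_zero_iff (two_ne_zero) |>.mp e2
  refine ⟨ha, Or.inl ⟨?_, ?_⟩⟩
  · rw [e2', e1']
  · rw [e1']

lemma core_T {a t t' : E} (ha : a ∈ (B : Set E)) (ht : t ∈ (B : Set E)) (ht' : t' ∈ (B : Set E))
    (h1 : a ≠ S.ρ (S.Y (S.ρ t'))) (h2 : a ≠ S.ρ (S.Z (S.ρ t)))
    (h3 : S.ρ (S.Y (S.ρ t')) ≠ S.ρ (S.Z (S.ρ t))) :
    0 ≤ S.gap a (S.ρ (S.Y (S.ρ t'))) (S.ρ (S.Z (S.ρ t))) ∧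
      (S.gap a (S.ρ (S.Y (S.ρ t'))) (S.ρ (S.Z (S.ρ t))) = 0 →
        S.OnBranch a (S.ρ (S.Y (S.ρ t'))) (S.ρ (S.Z (S.ρ t)))) := by
  have g1 : S.ρ a ≠ S.Y (S.ρ t') := by
    intro h; apply h1; rw [← h, S.ρρ]
  have g2 : S.ρ a ≠ S.Z (S.ρ t) := by
    intro h; apply h2; rw [← h, S.ρρ]
  have g3 : S.Y (S.ρ t') ≠ S.Z (S.ρ t) := by
    intro h; apply h3; rw [h]
  have h := S.gap_core (S.ρB ha) (S.ρB ht) (S.ρB ht') g1 g2 g3
  have hg : S.gap a (S.ρ (S.Y (S.ρ t'))) (S.ρ (S.Z (S.ρ t)))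
      = S.gap (S.ρ a) (S.Y (S.ρ t')) (S.Z (S.ρ t)) := by
    unfold gap
    rw [S.pot3 ht', S.pot4 ht, S.pot0 ha, S.pot0 (S.ρB ha), S.pot1 (S.ρB ht'), S.pot2 (S.ρB ht)]
    have e1 : coul a (S.ρ (S.Y (S.ρ t'))) (S.ρ (S.Z (S.ρ t)))
        = coul (S.ρ a) (S.Y (S.ρ t')) (S.Z (S.ρ t)) := by
      rw [← coul_map S.ρ a, S.ρρ, S.ρρ]
    have e2 : phiX (S.ρ a) = phiX a := by
      unfold phiX; rw [LinearIsometryEquiv.norm_map]
    rw [e1, e2]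
  have q1 := sq_nonneg ‖S.ρ a - S.ρ t‖
  have q2 := sq_nonneg ‖S.Y (S.ρ t') - S.Y (S.ρ t)‖
  refine ⟨by rw [hg]; linarith, fun h0 => ?_⟩
  rw [hg] at h0
  have e1 : ‖S.ρ a - S.ρ t‖ ^ 2 = 0 := by linarith
  have e2 : ‖S.Y (S.ρ t') - S.Y (S.ρ t)‖ ^ 2 = 0 := by linarith
  have e1' : S.ρ a = S.ρ t := by
    rw [← sub_eq_zero, ← norm_eq_zero]; exact pow_eq_zero_iff (two_ne_zero) |>.mp e1
  have e2' : S.Y (S.ρ t') = S.Y (S.ρ t) := by
    rw [← sub_eq_zero, ← norm_eq_zero]; exact pow_eq_zero_iff (two_ne_zero) |>.mp e2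
  refine ⟨ha, Or.inr ⟨?_, ?_⟩⟩
  · rw [e2', e1']
  · rw [e1']

/-- Main gap proposition for distinct points of the clusters. -/
theorem gap_main (ℓ m n : Fin 5) {t1 t2 t3 : E} (h1 : t1 ∈ (B : Set E)) (h2 : t2 ∈ (B : Set E))
    (h3 : t3 ∈ (B : Set E)) (hab : S.w ℓ t1 ≠ S.w m t2) (hac : S.w ℓ t1 ≠ S.w n t3)
    (hbc : S.w m t2 ≠ S.w n t3) :
    0 ≤ S.gap (S.w ℓ t1) (S.w m t2) (S.w n t3) ∧
      (S.gap (S.w ℓ t1) (S.w m t2) (S.w n t3) = 0 →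
        S.Contact (S.w ℓ t1) (S.w m t2) (S.w n t3)) := by
  rcases lab_cases ℓ m n with h | h | h | h | h | h | h | h | h | h | h | h | h
  · have i1 := S.inv_dist ℓ m (S.near ℓ h1) (S.near m h2) hab
    have i2 := S.inv_dist ℓ n (S.near ℓ h1) (S.near n h3) hac
    have i3 := S.inv_dist m n (S.near m h2) (S.near n h3) hbc
    have b1 := (S.pot_bd ℓ h1).2
    have b2 := (S.pot_bd m h2).2
    have b3 := (S.pot_bd n h3).2
    have h' : ((s ℓ : ℝ) + s m + s n) < (q ℓ m : ℝ) + q ℓ n + q m n := by exact_mod_cast h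
    have hpos : 0 < S.gap (S.w ℓ t1) (S.w m t2) (S.w n t3) := by
      unfold gap coul
      linarith
    exact ⟨hpos.le, fun h0 => (hpos.ne' h0).elim⟩
  · simp only [Prod.mk.injEq] at h
    obtain ⟨rfl, rfl, rfl⟩ := h
    have := S.core_S (a := t1) (t := t3) (t' := t2) h1 h3 h2 hab hac hbc
    exact ⟨this.1, fun h0 => Or.inl (this.2 h0)⟩
  · simp only [Prod.mk.injEq] at h
    obtain ⟨rfl, rfl, rfl⟩ := h
    have := S.core_S (a := t1) (t := t2) (t' := t3) h1 h2 h3 hac hab hbc.symm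
    rw [S.gap23] at this
    exact ⟨this.1, fun h0 => Or.inr (Or.inl (this.2 h0))⟩
  · simp only [Prod.mk.injEq] at h
    obtain ⟨rfl, rfl, rfl⟩ := h
    have := S.core_S (a := t2) (t := t3) (t' := t1) h2 h3 h1 hab.symm hbc hac
    rw [S.gap12] at this
    exact ⟨this.1, fun h0 => Or.inr (Or.inr (Or.inl (this.2 h0)))⟩
  · simp only [Prod.mk.injEq] at h
    obtain ⟨rfl, rfl, rfl⟩ := h
    have := S.core_S (a := t3) (t := t2) (t' := t1) h3 h2 h1 hac.symm hbc.symm hab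
    rw [S.gap12, S.gap23] at this
    exact ⟨this.1, fun h0 => Or.inr (Or.inr (Or.inr (Or.inr (Or.inl (this.2 h0)))))⟩
  · simp only [Prod.mk.injEq] at h
    obtain ⟨rfl, rfl, rfl⟩ := h
    have := S.core_S (a := t2) (t := t1) (t' := t3) h2 h1 h3 hbc hab.symm hac.symm
    rw [S.gap23, S.gap12] at this
    exact ⟨this.1, fun h0 => Or.inr (Or.inr (Or.inr (Or.inl (this.2 h0))))⟩
  · simp only [Prod.mk.injEq] at h
    obtain ⟨rfl, rfl, rfl⟩ := h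
    have := S.core_S (a := t3) (t := t1) (t' := t2) h3 h1 h2 hbc.symm hac.symm hab.symm
    rw [S.gap12, S.gap23, S.gap12] at this
    exact ⟨this.1, fun h0 => Or.inr (Or.inr (Or.inr (Or.inr (Or.inr (this.2 h0)))))⟩
  · simp only [Prod.mk.injEq] at h
    obtain ⟨rfl, rfl, rfl⟩ := h
    have := S.core_T (a := t1) (t := t3) (t' := t2) h1 h3 h2 hab hac hbc
    exact ⟨this.1, fun h0 => Or.inl (this.2 h0)⟩
  · simp only [Prod.mk.injEq] at h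
    obtain ⟨rfl, rfl, rfl⟩ := h
    have := S.core_T (a := t1) (t := t2) (t' := t3) h1 h2 h3 hac hab hbc.symm
    rw [S.gap23] at this
    exact ⟨this.1, fun h0 => Or.inr (Or.inl (this.2 h0))⟩
  · simp only [Prod.mk.injEq] at h
    obtain ⟨rfl, rfl, rfl⟩ := h
    have := S.core_T (a := t2) (t := t3) (t' := t1) h2 h3 h1 hab.symm hbc hac
    rw [S.gap12] at this
    exact ⟨this.1, fun h0 => Or.inr (Or.inr (Or.inl (this.2 h0)))⟩
  · simp only [Prod.mk.injEq] at h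
    obtain ⟨rfl, rfl, rfl⟩ := h
    have := S.core_T (a := t3) (t := t2) (t' := t1) h3 h2 h1 hac.symm hbc.symm hab
    rw [S.gap12, S.gap23] at this
    exact ⟨this.1, fun h0 => Or.inr (Or.inr (Or.inr (Or.inr (Or.inl (this.2 h0)))))⟩
  · simp only [Prod.mk.injEq] at h
    obtain ⟨rfl, rfl, rfl⟩ := h
    have := S.core_T (a := t2) (t := t1) (t' := t3) h2 h1 h3 hbc hab.symm hac.symm
    rw [S.gap23, S.gap12] at this
    exact ⟨this.1, fun h0 => Or.inr (Or.inr (Or.inr (Or.inl (this.2 h0))))⟩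
  · simp only [Prod.mk.injEq] at h
    obtain ⟨rfl, rfl, rfl⟩ := h
    have := S.core_T (a := t3) (t := t1) (t' := t2) h3 h1 h2 hbc.symm hac.symm hab.symm
    rw [S.gap12, S.gap23, S.gap12] at this
    exact ⟨this.1, fun h0 => Or.inr (Or.inr (Or.inr (Or.inr (Or.inr (this.2 h0)))))⟩

end Setup

end Vale.Agent.P121
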