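import Mathlib

/-! Elementary inequalities for the Coulomb kernel in a real inner product space. -/

namespace Vale.Agent.P121

variable {E : Type*} [NormedAddCommGroup E] [InnerProductSpace ℝ E]

/-- The Coulomb force field `u / |u|^3`. -/
noncomputable def frc (u : E) : E := (‖u‖ ^ 3)⁻¹ • u

lemma frc_neg (u : E) : frc (-u) = -frc u := by
  simp [frc]

/-- Tangent inequality for the Coulomb kernel. -/
lemma tangent (u v : E) (hu : u ≠ 0) (hv : v ≠ 0) :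
    ‖u‖⁻¹ - inner ℝ (frc u) (v - u) - ‖v - u‖ ^ 2 / (2 * ‖u‖ ^ 3) ≤ ‖v‖⁻¹ := by
  have hr : 0 < ‖u‖ := norm_pos_iff.mpr hu
  have hs : 0 < ‖v‖ := norm_pos_iff.mpr hv
  have h1 : inner ℝ (frc u) (v - u) = (inner ℝ u v - ‖u‖ ^ 2) / ‖u‖ ^ 3 := by
    unfold frc
    rw [inner_smul_left, inner_sub_right, real_inner_self_eq_norm_sq]
    simp
    field_simp
  have h2 : ‖v - u‖ ^ 2 = ‖v‖ ^ 2 - 2 * inner ℝ u v + ‖u‖ ^ 2 := by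
    rw [norm_sub_sq_real, real_inner_comm]
  rw [h1, h2]
  generalize ‖u‖ = r at *
  generalize ‖v‖ = s at *
  have key : 0 ≤ 1 / s - 3 / (2 * r) + s ^ 2 / (2 * r ^ 3) := by
    have : 1 / s - 3 / (2 * r) + s ^ 2 / (2 * r ^ 3)
        = (s - r) ^ 2 * (s + 2 * r) / (2 * r ^ 3 * s) := by
      field_simp
      ring
    rw [this]
    positivity
  have : s⁻¹ - (r⁻¹ - (inner ℝ u v - r ^ 2) / r ^ 3
      - (s ^ 2 - 2 * inner ℝ u v + r ^ 2) / (2 * r ^ 3))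
      = 1 / s - 3 / (2 * r) + s ^ 2 / (2 * r ^ 3) := by
    field_simp
    ring
  linarith

lemma frc_sub_sq (u v : E) (hu : u ≠ 0) (hv : v ≠ 0) :
    ‖frc u - frc v‖ ^ 2 = (‖u‖ - ‖v‖) ^ 2 * (‖u‖ + ‖v‖) ^ 2 / (‖u‖ ^ 4 * ‖v‖ ^ 4)
      + (‖u - v‖ ^ 2 - (‖u‖ - ‖v‖) ^ 2) / (‖u‖ ^ 3 * ‖v‖ ^ 3) := by
  have hr : 0 < ‖u‖ := norm_pos_iff.mpr hu
  have hs : 0 < ‖v‖ := norm_pos_iff.mpr hv
  have h2 : ‖u - v‖ ^ 2 = ‖u‖ ^ 2 - 2 * inner ℝ u v + ‖v‖ ^ 2 := by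
    rw [norm_sub_sq_real]
  have h3 : ‖frc u - frc v‖ ^ 2
      = (‖u‖ ^ 4)⁻¹ - 2 * inner ℝ u v / (‖u‖ ^ 3 * ‖v‖ ^ 3) + (‖v‖ ^ 4)⁻¹ := by
    rw [norm_sub_sq_real]
    have a1 : ‖frc u‖ ^ 2 = (‖u‖ ^ 4)⁻¹ := by
      unfold frc
      rw [norm_smul, norm_inv, norm_pow, norm_norm]
      field_simp
    have a2 : ‖frc v‖ ^ 2 = (‖v‖ ^ 4)⁻¹ := by
      unfold frc
      rw [norm_smul, norm_inv, norm_pow, norm_norm]
      field_simp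
    have a3 : inner ℝ (frc u) (frc v) = inner ℝ u v / (‖u‖ ^ 3 * ‖v‖ ^ 3) := by
      unfold frc
      rw [inner_smul_left, inner_smul_right]
      simp
      field_simp
    rw [a1, a2, a3]
    ring
  rw [h3, h2]
  generalize ‖u‖ = r at *
  generalize ‖v‖ = s at *
  field_simp
  ring

lemma frc_upper (u v : E) {r : ℝ} (hr : 0 < r) (hu : r ≤ ‖u‖) (hv : r ≤ ‖v‖) :
    ‖frc u - frc v‖ ≤ 2 / r ^ 3 * ‖u - v‖ := by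
  have hu0 : 0 < ‖u‖ := lt_of_lt_of_le hr hu
  have hv0 : 0 < ‖v‖ := lt_of_lt_of_le hr hv
  have hu' : u ≠ 0 := norm_pos_iff.mp hu0
  have hv' : v ≠ 0 := norm_pos_iff.mp hv0
  have h := frc_sub_sq u v hu' hv'
  have habs : (‖u‖ - ‖v‖) ^ 2 ≤ ‖u - v‖ ^ 2 := by
    have := abs_norm_sub_norm_le u v
    exact sq_le_sq' (by linarith [neg_abs_le (‖u‖ - ‖v‖)]) (le_trans (le_abs_self _) this)
  set a := ‖u‖
  set b := ‖v‖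
  have c1 : (a - b) ^ 2 * (a + b) ^ 2 / (a ^ 4 * b ^ 4) ≤ (a - b) ^ 2 * (4 / r ^ 6) := by
    have : (a + b) ^ 2 / (a ^ 4 * b ^ 4) ≤ 4 / r ^ 6 := by
      have e1 : (a + b) ^ 2 / (a ^ 4 * b ^ 4) = (1 / a + 1 / b) ^ 2 * (1 / a) ^ 2 * (1 / b) ^ 2 := by
        field_simp
        ring
      have ha1 : 1 / a ≤ 1 / r := one_div_le_one_div_of_le hr hu
      have hb1 : 1 / b ≤ 1 / r := one_div_le_one_div_of_le hr hv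
      have ha0 : 0 < 1 / a := by positivity
      have hb0 : 0 < 1 / b := by positivity
      rw [e1]
      calc (1 / a + 1 / b) ^ 2 * (1 / a) ^ 2 * (1 / b) ^ 2
          ≤ (1 / r + 1 / r) ^ 2 * (1 / r) ^ 2 * (1 / r) ^ 2 := by gcongr
        _ = 4 / r ^ 6 := by field_simp; ring
    calc (a - b) ^ 2 * (a + b) ^ 2 / (a ^ 4 * b ^ 4)
        = (a - b) ^ 2 * ((a + b) ^ 2 / (a ^ 4 * b ^ 4)) := by ring
      _ ≤ _ := by gcongr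
  have c2 : (‖u - v‖ ^ 2 - (a - b) ^ 2) / (a ^ 3 * b ^ 3)
      ≤ (‖u - v‖ ^ 2 - (a - b) ^ 2) * (4 / r ^ 6) := by
    have h6 : 1 / (a ^ 3 * b ^ 3) ≤ 4 / r ^ 6 := by
      have : r ^ 3 * r ^ 3 ≤ a ^ 3 * b ^ 3 := by gcongr
      calc 1 / (a ^ 3 * b ^ 3) ≤ 1 / (r ^ 3 * r ^ 3) := by
            apply one_div_le_one_div_of_le (by positivity) this
        _ = 1 / r ^ 6 := by ring_nf
        _ ≤ 4 / r ^ 6 := by gcongr; norm_num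
    have h0 : 0 ≤ ‖u - v‖ ^ 2 - (a - b) ^ 2 := by linarith
    calc (‖u - v‖ ^ 2 - (a - b) ^ 2) / (a ^ 3 * b ^ 3)
        = (‖u - v‖ ^ 2 - (a - b) ^ 2) * (1 / (a ^ 3 * b ^ 3)) := by ring
      _ ≤ _ := by gcongr
  have c3 : ‖frc u - frc v‖ ^ 2 ≤ (2 / r ^ 3 * ‖u - v‖) ^ 2 := by
    rw [h]
    calc _ ≤ (a - b) ^ 2 * (4 / r ^ 6) + (‖u - v‖ ^ 2 - (a - b) ^ 2) * (4 / r ^ 6) :=
          add_le_add c1 c2
      _ = (2 / r ^ 3 * ‖u - v‖) ^ 2 := by ring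
  exact le_of_sq_le_sq c3 (by positivity)

lemma frc_lower (u v : E) {r : ℝ} (hr : 0 < r) (hu0 : u ≠ 0) (hv0 : v ≠ 0)
    (hu : ‖u‖ ≤ r) (hv : ‖v‖ ≤ r) :
    ‖u - v‖ ≤ r ^ 3 * ‖frc u - frc v‖ := by
  have h := frc_sub_sq u v hu0 hv0
  have ha0 : 0 < ‖u‖ := norm_pos_iff.mpr hu0
  have hb0 : 0 < ‖v‖ := norm_pos_iff.mpr hv0
  have habs : (‖u‖ - ‖v‖) ^ 2 ≤ ‖u - v‖ ^ 2 := by
    have := abs_norm_sub_norm_le u v
    exact sq_le_sq' (by linarith [neg_abs_le (‖u‖ - ‖v‖)]) (le_trans (le_abs_self _) this)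
  set a := ‖u‖
  set b := ‖v‖
  have h6 : 1 / r ^ 6 ≤ 1 / (a ^ 3 * b ^ 3) := by
    have : a ^ 3 * b ^ 3 ≤ r ^ 3 * r ^ 3 := by gcongr
    calc 1 / r ^ 6 = 1 / (r ^ 3 * r ^ 3) := by ring_nf
      _ ≤ 1 / (a ^ 3 * b ^ 3) := one_div_le_one_div_of_le (by positivity) this
  have c1 : (a - b) ^ 2 * (1 / r ^ 6) ≤ (a - b) ^ 2 * (a + b) ^ 2 / (a ^ 4 * b ^ 4) := by
    have : 1 / (a ^ 3 * b ^ 3) ≤ (a + b) ^ 2 / (a ^ 4 * b ^ 4) := by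
      rw [div_le_div_iff₀ (by positivity) (by positivity)]
      have : a * b ≤ (a + b) ^ 2 := by nlinarith [sq_nonneg (a - b), mul_pos ha0 hb0]
      calc 1 * (a ^ 4 * b ^ 4) = (a * b) * (a ^ 3 * b ^ 3) := by ring
        _ ≤ (a + b) ^ 2 * (a ^ 3 * b ^ 3) := by gcongr
    calc (a - b) ^ 2 * (1 / r ^ 6) ≤ (a - b) ^ 2 * ((a + b) ^ 2 / (a ^ 4 * b ^ 4)) :=
          mul_le_mul_of_nonneg_left (le_trans h6 this) (sq_nonneg _)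
      _ = _ := by ring
  have c2 : (‖u - v‖ ^ 2 - (a - b) ^ 2) * (1 / r ^ 6)
      ≤ (‖u - v‖ ^ 2 - (a - b) ^ 2) / (a ^ 3 * b ^ 3) := by
    have h0 : 0 ≤ ‖u - v‖ ^ 2 - (a - b) ^ 2 := by linarith
    calc (‖u - v‖ ^ 2 - (a - b) ^ 2) * (1 / r ^ 6)
        ≤ (‖u - v‖ ^ 2 - (a - b) ^ 2) * (1 / (a ^ 3 * b ^ 3)) := by gcongr
      _ = _ := by ring
  have c3 : ‖u - v‖ ^ 2 ≤ (r ^ 3 * ‖frc u - frc v‖) ^ 2 := by
    have : ‖u - v‖ ^ 2 * (1 / r ^ 6) ≤ ‖frc u - frc v‖ ^ 2 := by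
      rw [h]
      calc ‖u - v‖ ^ 2 * (1 / r ^ 6)
          = (a - b) ^ 2 * (1 / r ^ 6) + (‖u - v‖ ^ 2 - (a - b) ^ 2) * (1 / r ^ 6) := by ring
        _ ≤ _ := add_le_add c1 c2
    have hr6 : 0 < r ^ 6 := by positivity
    calc ‖u - v‖ ^ 2 = r ^ 6 * (‖u - v‖ ^ 2 * (1 / r ^ 6)) := by field_simp
      _ ≤ r ^ 6 * ‖frc u - frc v‖ ^ 2 := by gcongr
      _ = _ := by ring
  exact le_of_sq_le_sq c3 (by positivity)

/-- Inverse of the force field. -/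
noncomputable def frcInv (w : E) : E := ((Real.sqrt ‖w‖)⁻¹ ^ 3) • w

lemma norm_frcInv (w : E) (hw : w ≠ 0) : ‖frcInv w‖ = (Real.sqrt ‖w‖)⁻¹ := by
  have h0 : 0 < ‖w‖ := norm_pos_iff.mpr hw
  have hs : 0 < Real.sqrt ‖w‖ := Real.sqrt_pos.mpr h0
  have hsq : Real.sqrt ‖w‖ ^ 2 = ‖w‖ := Real.sq_sqrt h0.le
  unfold frcInv
  rw [norm_smul, norm_pow, norm_inv, Real.norm_of_nonneg hs.le]
  nth_rewrite 2 [← hsq]
  field_simp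

lemma frc_frcInv (w : E) (hw : w ≠ 0) : frc (frcInv w) = w := by
  have h0 : 0 < ‖w‖ := norm_pos_iff.mpr hw
  have hs : 0 < Real.sqrt ‖w‖ := Real.sqrt_pos.mpr h0
  unfold frc
  rw [norm_frcInv w hw]
  unfold frcInv
  rw [smul_smul]
  have : ((Real.sqrt ‖w‖)⁻¹ ^ 3)⁻¹ * (Real.sqrt ‖w‖)⁻¹ ^ 3 = 1 := by
    field_simp
  rw [this, one_smul]

end Vale.Agent.P121
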