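import Vale.Agent.P121.Dual

/-! The measure, the optimal plan and the contradiction. -/

namespace Vale.Agent.P121

open Metric Set NNReal MeasureTheory
open scoped ENNReal

section general

variable {E : Type*} [NormedAddCommGroup E] [InnerProductSpace ℝ E] [FiniteDimensional ℝ E]
  [MeasurableSpace E] [BorelSpace E]

lemma lip_image (m : Measure E) [m.IsAddHaarMeasure] {τ : E → E} {K : ℝ≥0}
    (hτ : LipschitzWith K τ) (N : Set E) :
    m (τ '' N) ≤ (K : ℝ≥0∞) ^ (Module.finrank ℝ E : ℝ) * m N := by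
  have hc := Measure.isAddLeftInvariant_eq_smul m
    (μH[(Module.finrank ℝ E : ℝ)] : Measure E)
  set c := m.addHaarScalarFactor (μH[(Module.finrank ℝ E : ℝ)] : Measure E)
  rw [hc]
  simp only [Measure.smul_apply]
  have h := hτ.hausdorffMeasure_image_le (d := (Module.finrank ℝ E : ℝ)) (by positivity) N
  calc c • (μH[(Module.finrank ℝ E : ℝ)] : Measure E) (τ '' N)
      ≤ c • ((K : ℝ≥0∞) ^ (Module.finrank ℝ E : ℝ)
        * (μH[(Module.finrank ℝ E : ℝ)] : Measure E) N) := by gcongr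
    _ = _ := by rw [mul_smul_comm]

lemma lint3 {α : Type*} [MeasurableSpace α] (μ : Measure α) {f g h : α → ℝ≥0∞}
    (hf : Measurable f) (hg : Measurable g) :
    ∫⁻ a, (f a + g a + h a) ∂μ = (∫⁻ a, f a ∂μ) + (∫⁻ a, g a ∂μ) + (∫⁻ a, h a ∂μ) := by
  have hfg : Measurable (fun a => f a + g a) := hf.add hg
  rw [lintegral_add_left hfg, lintegral_add_left hf]

end general

namespace Setup

variable {E : Type*} [NormedAddCommGroup E] [InnerProductSpace ℝ E] [FiniteDimensional ℝ E]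
  [MeasurableSpace E] [BorelSpace E] (S : Setup E) (m : Measure E) [m.IsAddHaarMeasure]

lemma B_eq : (B : Set E) = closedBall (0 : E) (1 / 10 ^ 6) := by
  ext x; simp [B]

lemma B_meas : MeasurableSet (B : Set E) := by
  rw [B_eq]; exact measurableSet_closedBall

lemma mB_pos : m (B : Set E) ≠ 0 := by
  rw [B_eq]
  exact (measure_closedBall_pos m _ (by positivity)).ne'

lemma mB_top : m (B : Set E) ≠ ∞ := by
  rw [B_eq]
  exact measure_closedBall_lt_top.ne

/-- Uniform distribution on the parameter ball. -/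
noncomputable def nu : Measure E := (m (B : Set E))⁻¹ • m.restrict (B : Set E)

instance nu_prob : IsProbabilityMeasure (nu m) := by
  constructor
  unfold nu
  rw [Measure.smul_apply, Measure.restrict_apply_univ, smul_eq_mul]
  exact ENNReal.inv_mul_cancel (mB_pos m) (mB_top m)

lemma nu_B : ∀ᵐ x ∂(nu m), x ∈ (B : Set E) := by
  unfold nu
  exact Measure.ae_smul_measure (ae_restrict_mem B_meas) _

/-- The marginal. -/
noncomputable def mu : Measure E :=
  (6 : ℝ≥0∞)⁻¹ • (nu m + nu m + (nu m).map S.Y + (nu m).map S.Z + (nu m).map S.y'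
    + (nu m).map S.z')

lemma lint_mu {g : E → ℝ≥0∞} (hg : Measurable g) :
    ∫⁻ x, g x ∂(S.mu m) = (6 : ℝ≥0∞)⁻¹ * ((∫⁻ t, g t ∂(nu m)) + (∫⁻ t, g t ∂(nu m))
      + (∫⁻ t, g (S.Y t) ∂(nu m)) + (∫⁻ t, g (S.Z t) ∂(nu m)) + (∫⁻ t, g (S.y' t) ∂(nu m))
      + (∫⁻ t, g (S.z' t) ∂(nu m))) := by
  unfold mu
  rw [lintegral_smul_measure, lintegral_add_measure, lintegral_add_measure, lintegral_add_measure,
    lintegral_add_measure, lintegral_add_measure, lintegral_map hg S.contY.measurable,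
    lintegral_map hg S.contZ.measurable, lintegral_map hg S.conty'.measurable,
    lintegral_map hg S.contz'.measurable, smul_eq_mul]

instance mu_prob : IsProbabilityMeasure (S.mu m) := by
  constructor
  have h := S.lint_mu m (g := fun _ => 1) measurable_const
  simp only [lintegral_const, measure_univ, mul_one] at h
  rw [one_mul] at h
  rw [h]
  have : (1 : ℝ≥0∞) + 1 + 1 + 1 + 1 + 1 = 6 := by norm_num
  rw [this]
  exact ENNReal.inv_mul_cancel (by norm_num) (by norm_num)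

lemma cont_w (ℓ : Fin 5) : Continuous (S.w ℓ) := by
  fin_cases ℓ
  · exact continuous_id
  · exact S.contY
  · exact S.contZ
  · exact S.conty'
  · exact S.contz'

lemma D_compact : IsCompact S.D := by
  have : S.D = ⋃ ℓ : Fin 5, S.w ℓ '' (B : Set E) := by
    ext p
    simp only [D, mem_setOf_eq, mem_iUnion, mem_image]
    constructor
    · rintro ⟨ℓ, t, ht, rfl⟩; exact ⟨ℓ, t, ht, rfl⟩
    · rintro ⟨ℓ, t, ht, rfl⟩; exact ⟨ℓ, t, ht, rfl⟩
  rw [this]
  apply isCompact_iUnion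
  intro ℓ
  apply IsCompact.image _ (S.cont_w ℓ)
  rw [B_eq]
  exact isCompact_closedBall _ _

lemma D_meas : MeasurableSet S.D := S.D_compact.isClosed.measurableSet

lemma mu_D : ∀ᵐ x ∂(S.mu m), x ∈ S.D := by
  unfold mu
  apply Measure.ae_smul_measure
  rw [ae_add_measure_iff, ae_add_measure_iff, ae_add_measure_iff, ae_add_measure_iff,
    ae_add_measure_iff, ae_map_iff (p := fun x => x ∈ S.D) S.contY.aemeasurable S.D_meas,
    ae_map_iff (p := fun x => x ∈ S.D) S.contZ.aemeasurable S.D_meas,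
    ae_map_iff (p := fun x => x ∈ S.D) S.conty'.aemeasurable S.D_meas,
    ae_map_iff (p := fun x => x ∈ S.D) S.contz'.aemeasurable S.D_meas]
  have hB := nu_B m
  refine ⟨⟨⟨⟨⟨?_, ?_⟩, ?_⟩, ?_⟩, ?_⟩, ?_⟩
  · filter_upwards [hB] with t ht using S.memD0 ht
  · filter_upwards [hB] with t ht using S.memD0 ht
  · filter_upwards [hB] with t ht using S.memD1 ht
  · filter_upwards [hB] with t ht using S.memD2 ht
  · filter_upwards [hB] with t ht using S.memD3 ht
  · filter_upwards [hB] with t ht using S.memD4 ht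

/-- Pushforwards under maps with Lipschitz left inverses have bounded density. -/
lemma map_le {v τ : E → E} (hv : Measurable v) {K : ℝ≥0} (hτ : LipschitzWith K τ)
    (h : ∀ t ∈ (B : Set E), τ (v t) = t) :
    (nu m).map v ≤ ((m (B : Set E))⁻¹ * (K : ℝ≥0∞) ^ (Module.finrank ℝ E : ℝ)) • m := by
  refine Measure.le_iff.mpr fun N hN => ?_
  rw [Measure.map_apply hv hN, nu, Measure.smul_apply, Measure.smul_apply, smul_eq_mul,
    smul_eq_mul, Measure.restrict_apply (hv hN), mul_assoc]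
  refine mul_le_mul' le_rfl (le_trans ?_ (lip_image m hτ N))
  apply measure_mono
  rintro t ⟨htN, htB⟩
  exact ⟨v t, htN, h t htB⟩

lemma mu_le : ∃ C : ℝ≥0, S.mu m ≤ C • m := by
  obtain ⟨KY, hY⟩ := S.htY
  obtain ⟨KZ, hZ⟩ := S.htZ
  have hρ : LipschitzWith 1 S.ρ := S.ρ.isometry.lipschitz
  have hy := (hρ.comp (hY.comp hρ))
  have hz := (hρ.comp (hZ.comp hρ))
  have b0 := map_le m (v := fun t => t) (τ := fun t => t) measurable_id
    (LipschitzWith.id (α := E)) (fun t _ => rfl)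
  rw [Measure.map_id'] at b0
  have b1 := map_le m S.contY.measurable hY (fun t ht => (S.spec t ht).2.2.2.1)
  have b2 := map_le m S.contZ.measurable hZ (fun t ht => (S.spec t ht).2.2.2.2)
  have b3 := map_le m S.conty'.measurable hy (fun t ht => by
    simp only [Function.comp, y', S.ρρ]
    rw [(S.spec _ (S.ρB ht)).2.2.2.1, S.ρρ])
  have b4 := map_le m S.contz'.measurable hz (fun t ht => by
    simp only [Function.comp, z', S.ρρ]
    rw [(S.spec _ (S.ρB ht)).2.2.2.2, S.ρρ])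
  have fin : ∀ K : ℝ≥0,
      ((m (B : Set E))⁻¹ * (K : ℝ≥0∞) ^ (Module.finrank ℝ E : ℝ)) ≠ ∞ := by
    intro K
    refine ENNReal.mul_ne_top (ENNReal.inv_ne_top.mpr (mB_pos m)) ?_
    exact ENNReal.rpow_ne_top_of_nonneg (by positivity) (by simp)
  have tot := add_le_add (add_le_add (add_le_add (add_le_add (add_le_add b0 b0) b1) b2) b3) b4
  simp only [← add_smul] at tot
  obtain ⟨C, hC, hle⟩ : ∃ C : ℝ≥0∞, C ≠ ∞ ∧ (nu m + nu m + (nu m).map S.Y + (nu m).map S.Z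
      + (nu m).map S.y' + (nu m).map S.z') ≤ C • m := by
    refine ⟨_, ?_, tot⟩
    simp only [ne_eq, ENNReal.add_eq_top, not_or]
    exact ⟨⟨⟨⟨⟨fin _, fin _⟩, fin _⟩, fin _⟩, fin _⟩, fin _⟩
  refine ⟨C.toNNReal, ?_⟩
  have e : (C.toNNReal : ℝ≥0) • m = C • m := by
    conv_rhs => rw [← ENNReal.coe_toNNReal hC]
    rfl
  rw [e]
  refine le_trans ?_ hle
  unfold mu
  refine Measure.le_iff.mpr fun N hN => ?_
  rw [Measure.smul_apply, smul_eq_mul]
  refine (mul_le_mul' (show (6 : ℝ≥0∞)⁻¹ ≤ 1 by simp) le_rfl).trans ?_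
  rw [one_mul]

/-! ### The optimal plan -/

/-- The six orderings used for the symmetric plan. -/
noncomputable def pln : Measure (E × E × E) :=
  (6 : ℝ≥0∞)⁻¹ • ((nu m).map (fun t => (t, S.Y t, S.Z t)) + (nu m).map (fun t => (t, S.y' t, S.z' t))
    + (nu m).map (fun t => (S.Y t, S.Z t, t)) + (nu m).map (fun t => (S.Z t, t, S.Y t))
    + (nu m).map (fun t => (S.y' t, S.z' t, t)) + (nu m).map (fun t => (S.z' t, t, S.y' t)))

lemma mF1 : Measurable (fun t : E => (t, S.Y t, S.Z t)) :=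
  measurable_id.prodMk (S.contY.measurable.prodMk S.contZ.measurable)
lemma mF2 : Measurable (fun t : E => (t, S.y' t, S.z' t)) :=
  measurable_id.prodMk (S.conty'.measurable.prodMk S.contz'.measurable)
lemma mF3 : Measurable (fun t : E => (S.Y t, S.Z t, t)) :=
  S.contY.measurable.prodMk (S.contZ.measurable.prodMk measurable_id)
lemma mF4 : Measurable (fun t : E => (S.Z t, t, S.Y t)) :=
  S.contZ.measurable.prodMk (measurable_id.prodMk S.contY.measurable)
lemma mF5 : Measurable (fun t : E => (S.y' t, S.z' t, t)) :=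
  S.conty'.measurable.prodMk (S.contz'.measurable.prodMk measurable_id)
lemma mF6 : Measurable (fun t : E => (S.z' t, t, S.y' t)) :=
  S.contz'.measurable.prodMk (measurable_id.prodMk S.conty'.measurable)

lemma lint_pln {G : E × E × E → ℝ≥0∞} (hG : Measurable G) :
    ∫⁻ p, G p ∂(S.pln m) = (6 : ℝ≥0∞)⁻¹ * ((∫⁻ t, G (t, S.Y t, S.Z t) ∂(nu m))
      + (∫⁻ t, G (t, S.y' t, S.z' t) ∂(nu m)) + (∫⁻ t, G (S.Y t, S.Z t, t) ∂(nu m))
      + (∫⁻ t, G (S.Z t, t, S.Y t) ∂(nu m)) + (∫⁻ t, G (S.y' t, S.z' t, t) ∂(nu m))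
      + (∫⁻ t, G (S.z' t, t, S.y' t) ∂(nu m))) := by
  unfold pln
  rw [lintegral_smul_measure, lintegral_add_measure, lintegral_add_measure, lintegral_add_measure,
    lintegral_add_measure, lintegral_add_measure, lintegral_map hG S.mF1, lintegral_map hG S.mF2,
    lintegral_map hG S.mF3, lintegral_map hG S.mF4, lintegral_map hG S.mF5,
    lintegral_map hG S.mF6, smul_eq_mul]

lemma pln_cplg : IsCplg (S.mu m) (S.pln m) := by
  have hmap : ∀ pr : E × E × E → E, Measurable pr →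
      ((∀ a b c, pr (a, b, c) = a) ∨ (∀ a b c, pr (a, b, c) = b) ∨ (∀ a b c, pr (a, b, c) = c)) →
      (S.pln m).map pr = S.mu m := by
    intro pr hpr h
    ext N hN
    rw [Measure.map_apply hpr hN, ← lintegral_indicator_one hN,
      ← lintegral_indicator_one (hpr hN)]
    rw [S.lint_pln m (measurable_one.indicator (hpr hN)),
      S.lint_mu m (measurable_one.indicator hN)]
    congr 1
    have e : ∀ p : E × E × E, (pr ⁻¹' N).indicator (1 : E × E × E → ℝ≥0∞) p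
        = N.indicator (1 : E → ℝ≥0∞) (pr p) := by
      intro p
      by_cases hp : pr p ∈ N
      · rw [indicator_of_mem (show p ∈ pr ⁻¹' N from hp), indicator_of_mem hp]; rfl
      · rw [indicator_of_notMem (show p ∉ pr ⁻¹' N from hp), indicator_of_notMem hp]
    simp only [e]
    rcases h with h | h | h <;> simp only [h] <;> ring
  refine ⟨?_, ?_, ?_, ?_⟩
  · constructor
    have h := S.lint_pln m (G := fun _ => 1) measurable_const
    simp only [lintegral_const, measure_univ, mul_one] at h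
    rw [one_mul] at h
    rw [h]
    have : (1 : ℝ≥0∞) + 1 + 1 + 1 + 1 + 1 = 6 := by norm_num
    rw [this]
    exact ENNReal.inv_mul_cancel (by norm_num) (by norm_num)
  · exact hmap _ measurable_fst (Or.inl fun a b c => rfl)
  · exact hmap _ (measurable_fst.comp measurable_snd) (Or.inr (Or.inl fun a b c => rfl))
  · exact hmap _ (measurable_snd.comp measurable_snd) (Or.inr (Or.inr fun a b c => rfl))

/-- The dual value. -/
noncomputable def val : ℝ≥0∞ :=
  (∫⁻ x, S.psi x ∂(S.mu m)) + (∫⁻ x, S.psi x ∂(S.mu m)) + (∫⁻ x, S.psi x ∂(S.mu m))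

lemma val_ne_top : S.val m ≠ ∞ := by
  have h : ∫⁻ x, S.psi x ∂(S.mu m) ≤ ENNReal.ofReal 2 := by
    calc ∫⁻ x, S.psi x ∂(S.mu m) ≤ ∫⁻ _, ENNReal.ofReal 2 ∂(S.mu m) := by
          apply lintegral_mono_ae
          filter_upwards [S.mu_D m] with x hx
          exact ENNReal.ofReal_le_ofReal (S.pot_le hx)
      _ = ENNReal.ofReal 2 := by simp
  have h' : ∫⁻ x, S.psi x ∂(S.mu m) ≠ ∞ := ne_top_of_le_ne_top ENNReal.ofReal_ne_top h
  unfold val
  exact ENNReal.add_ne_top.mpr ⟨ENNReal.add_ne_top.mpr ⟨h', h'⟩, h'⟩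

lemma cost_pln : ∫⁻ p, costE p.1 p.2.1 p.2.2 ∂(S.pln m) = S.val m := by
  rw [S.lint_pln m meas_cost]
  unfold val
  rw [S.lint_mu m S.meas_psi]
  have mY : Measurable (fun t => S.psi (S.Y t)) := S.meas_psi.comp S.contY.measurable
  have mZ : Measurable (fun t => S.psi (S.Z t)) := S.meas_psi.comp S.contZ.measurable
  have my : Measurable (fun t => S.psi (S.y' t)) := S.meas_psi.comp S.conty'.measurable
  have mz : Measurable (fun t => S.psi (S.z' t)) := S.meas_psi.comp S.contz'.measurable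
  have hS : ∫⁻ t, costE t (S.Y t) (S.Z t) ∂(nu m)
      = (∫⁻ t, S.psi t ∂(nu m)) + (∫⁻ t, S.psi (S.Y t) ∂(nu m))
        + (∫⁻ t, S.psi (S.Z t) ∂(nu m)) := by
    rw [← lint3 (nu m) S.meas_psi mY]
    apply lintegral_congr_ae
    filter_upwards [nu_B m] with t ht using S.cost_S ht
  have hT : ∫⁻ t, costE t (S.y' t) (S.z' t) ∂(nu m)
      = (∫⁻ t, S.psi t ∂(nu m)) + (∫⁻ t, S.psi (S.y' t) ∂(nu m))
        + (∫⁻ t, S.psi (S.z' t) ∂(nu m)) := by
    rw [← lint3 (nu m) S.meas_psi my]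
    apply lintegral_congr_ae
    filter_upwards [nu_B m] with t ht using S.cost_T ht
  have r1 : ∀ t, costE (S.Y t) (S.Z t) t = costE t (S.Y t) (S.Z t) := fun t => costE_rot _ _ _
  have r2 : ∀ t, costE (S.Z t) t (S.Y t) = costE t (S.Y t) (S.Z t) :=
    fun t => (costE_rot _ _ _).symm
  have r3 : ∀ t, costE (S.y' t) (S.z' t) t = costE t (S.y' t) (S.z' t) := fun t => costE_rot _ _ _
  have r4 : ∀ t, costE (S.z' t) t (S.y' t) = costE t (S.y' t) (S.z' t) :=
    fun t => (costE_rot _ _ _).symm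
  simp only [r1, r2, r3, r4]
  rw [hS, hT]
  ring

lemma val_le (π : Measure (E × E × E)) (hπ : IsCplg (S.mu m) π) :
    S.val m ≤ ∫⁻ p, costE p.1 p.2.1 p.2.2 ∂π := by
  obtain ⟨-, h1, h2, h3⟩ := hπ
  have q1 : Measurable (fun p : E × E × E => p.1) := measurable_fst
  have q2 : Measurable (fun p : E × E × E => p.2.1) := measurable_fst.comp measurable_snd
  have q3 : Measurable (fun p : E × E × E => p.2.2) := measurable_snd.comp measurable_snd
  have a1 : ∀ᵐ p ∂π, p.1 ∈ S.D := by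
    apply ae_of_ae_map (p := fun x => x ∈ S.D) q1.aemeasurable
    rw [h1]; exact S.mu_D m
  have a2 : ∀ᵐ p ∂π, p.2.1 ∈ S.D := by
    apply ae_of_ae_map (p := fun x => x ∈ S.D) q2.aemeasurable
    rw [h2]; exact S.mu_D m
  have a3 : ∀ᵐ p ∂π, p.2.2 ∈ S.D := by
    apply ae_of_ae_map (p := fun x => x ∈ S.D) q3.aemeasurable
    rw [h3]; exact S.mu_D m
  have e1 : ∫⁻ x, S.psi x ∂(S.mu m) = ∫⁻ p, S.psi p.1 ∂π := by
    rw [← lintegral_map S.meas_psi q1, h1]
  have e2 : ∫⁻ x, S.psi x ∂(S.mu m) = ∫⁻ p, S.psi p.2.1 ∂π := by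
    rw [← lintegral_map S.meas_psi q2, h2]
  have e3 : ∫⁻ x, S.psi x ∂(S.mu m) = ∫⁻ p, S.psi p.2.2 ∂π := by
    rw [← lintegral_map S.meas_psi q3, h3]
  have : S.val m = ∫⁻ p, (S.psi p.1 + S.psi p.2.1 + S.psi p.2.2) ∂π := by
    have p1 : Measurable (fun p : E × E × E => S.psi p.1) := S.meas_psi.comp q1
    have p2 : Measurable (fun p : E × E × E => S.psi p.2.1) := S.meas_psi.comp q2
    rw [lint3 π p1 p2, ← e1, ← e2, ← e3]
    rfl
  rw [this]
  apply lintegral_mono_ae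
  filter_upwards [a1, a2, a3] with p b1 b2 b3 using S.dual_ineq b1 b2 b3

lemma kant_eq : kant (S.mu m) = S.val m := by
  apply le_antisymm
  · unfold kant
    refine (iInf₂_le (S.pln m) (S.pln_cplg m)).trans ?_
    rw [S.cost_pln m]
  · unfold kant
    exact le_iInf₂ fun π hπ => S.val_le m π hπ

lemma region_disj {ℓ k : Fin 5} (h : ℓ ≠ k) :
    Disjoint {p : E | ‖p - S.ctr ℓ‖ ≤ 1 / 10} {p : E | ‖p - S.ctr k‖ ≤ 1 / 10} := by
  rw [Set.disjoint_left]
  intro p hp hq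
  have h1 := S.ctr_sep h
  have h2 : S.ctr ℓ - S.ctr k = (p - S.ctr k) - (p - S.ctr ℓ) := by abel
  rw [h2] at h1
  have h3 := norm_sub_le (p - S.ctr k) (p - S.ctr ℓ)
  have hp' : ‖p - S.ctr ℓ‖ ≤ 1 / 10 := hp
  have hq' : ‖p - S.ctr k‖ ≤ 1 / 10 := hq
  linarith

lemma region_meas (ℓ : Fin 5) : MeasurableSet {p : E | ‖p - S.ctr ℓ‖ ≤ 1 / 10} :=
  (isClosed_le (continuous_id.sub continuous_const).norm continuous_const).measurableSet

lemma B_sub : (B : Set E) ⊆ {p : E | ‖p - S.ctr 0‖ ≤ 1 / 10} := by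
  intro t ht
  have h : ‖t‖ ≤ 1 / 10 ^ 6 := ht
  change ‖t - 0‖ ≤ 1 / 10
  rw [sub_zero]
  norm_num at h ⊢
  linarith

lemma cost_comp_meas {T2 T3 : E → E} (hT2 : Measurable T2) (hT3 : Measurable T3) :
    Measurable (fun x : E => costE x (T2 x) (T3 x)) := by
  unfold costE
  have m1 : Measurable (fun x : E => x) := measurable_id
  exact (((m1.edist hT2).inv).add ((m1.edist hT3).inv)).add ((hT2.edist hT3).inv)

lemma val_eq_monge {T2 T3 : E → E} (hT2 : Measurable T2) (hT3 : Measurable T3)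
    (m2 : (S.mu m).map T2 = S.mu m) (m3 : (S.mu m).map T3 = S.mu m) :
    S.val m = ∫⁻ x, (S.psi x + S.psi (T2 x) + S.psi (T3 x)) ∂(S.mu m) := by
  have e2 : ∫⁻ x, S.psi x ∂(S.mu m) = ∫⁻ x, S.psi (T2 x) ∂(S.mu m) := by
    rw [← lintegral_map S.meas_psi hT2, m2]
  have e3 : ∫⁻ x, S.psi x ∂(S.mu m) = ∫⁻ x, S.psi (T3 x) ∂(S.mu m) := by
    rw [← lintegral_map S.meas_psi hT3, m3]
  have p2 : Measurable (fun x : E => S.psi (T2 x)) := S.meas_psi.comp hT2
  rw [lint3 (S.mu m) S.meas_psi p2, ← e2, ← e3]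
  rfl

lemma map_D {T : E → E} (hT : Measurable T) (hm : (S.mu m).map T = S.mu m) :
    ∀ᵐ x ∂(S.mu m), T x ∈ S.D := by
  apply ae_of_ae_map (p := fun x => x ∈ S.D) hT.aemeasurable
  rw [hm]; exact S.mu_D m

lemma monge_eq {T2 T3 : E → E} (hT2 : Measurable T2) (hT3 : Measurable T3)
    (m2 : (S.mu m).map T2 = S.mu m) (m3 : (S.mu m).map T3 = S.mu m)
    (hopt : ∫⁻ x, costE x (T2 x) (T3 x) ∂(S.mu m) = S.val m) :
    ∀ᵐ x ∂(S.mu m), S.psi x + S.psi (T2 x) + S.psi (T3 x) = costE x (T2 x) (T3 x) := by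
  have hval := S.val_eq_monge m hT2 hT3 m2 m3
  have hle : (fun x => S.psi x + S.psi (T2 x) + S.psi (T3 x))
      ≤ᵐ[S.mu m] (fun x => costE x (T2 x) (T3 x)) := by
    filter_upwards [S.mu_D m, S.map_D m hT2 m2, S.map_D m hT3 m3] with x b1 b2 b3
    exact S.dual_ineq b1 b2 b3
  have hfin : ∫⁻ x, (S.psi x + S.psi (T2 x) + S.psi (T3 x)) ∂(S.mu m) ≠ ∞ := by
    rw [← hval]; exact S.val_ne_top m
  have hge : ∫⁻ x, costE x (T2 x) (T3 x) ∂(S.mu m)
      ≤ ∫⁻ x, (S.psi x + S.psi (T2 x) + S.psi (T3 x)) ∂(S.mu m) := by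
    rw [hopt, hval]
  exact ae_eq_of_ae_le_of_lintegral_le hle hfin (cost_comp_meas hT2 hT3).aemeasurable hge

lemma monge_contact {T2 T3 : E → E} (hT2 : Measurable T2) (hT3 : Measurable T3)
    (m2 : (S.mu m).map T2 = S.mu m) (m3 : (S.mu m).map T3 = S.mu m)
    (hopt : ∫⁻ x, costE x (T2 x) (T3 x) ∂(S.mu m) = kant (S.mu m)) :
    ∀ᵐ x ∂(S.mu m), ∃ t ∈ (B : Set E), Rearr x (T2 x) (T3 x) t (S.Y t) (S.Z t) ∨
      Rearr x (T2 x) (T3 x) t (S.y' t) (S.z' t) := by
  rw [S.kant_eq m] at hopt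
  have heq := S.monge_eq m hT2 hT3 m2 m3 hopt
  filter_upwards [S.mu_D m, S.map_D m hT2 m2, S.map_D m hT3 m3, heq] with x b1 b2 b3 b4
  exact S.contact_rearr (S.dual_eq b1 b2 b3 b4)

/-- The region around the centre with index `ℓ`. -/
def Rg (ℓ : Fin 5) : Set E := {p : E | ‖p - S.ctr ℓ‖ ≤ 1 / 10}

lemma Rg_disj {ℓ k : Fin 5} (h : ℓ ≠ k) : Disjoint (S.Rg ℓ) (S.Rg k) := S.region_disj h

lemma Rg_meas (ℓ : Fin 5) : MeasurableSet (S.Rg ℓ) := S.region_meas ℓ

lemma B_disj {k : Fin 5} (hk : (0 : Fin 5) ≠ k) : Disjoint (B : Set E) (S.Rg k) :=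
  Disjoint.mono_left S.B_sub (S.Rg_disj hk)

lemma inY {t : E} (ht : t ∈ (B : Set E)) : S.Y t ∈ S.Rg 1 := (S.near 1 ht).trans (by norm_num)
lemma inZ {t : E} (ht : t ∈ (B : Set E)) : S.Z t ∈ S.Rg 2 := (S.near 2 ht).trans (by norm_num)
lemma iny {t : E} (ht : t ∈ (B : Set E)) : S.y' t ∈ S.Rg 3 := (S.near 3 ht).trans (by norm_num)
lemma inz {t : E} (ht : t ∈ (B : Set E)) : S.z' t ∈ S.Rg 4 := (S.near 4 ht).trans (by norm_num)

lemma left_y {t : E} (ht : t ∈ (B : Set E)) : S.ρ (S.tY (S.ρ (S.y' t))) = t := by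
  unfold y'
  rw [S.ρρ, (S.spec _ (S.ρB ht)).2.2.2.1, S.ρρ]

lemma left_z {t : E} (ht : t ∈ (B : Set E)) : S.ρ (S.tZ (S.ρ (S.z' t))) = t := by
  unfold z'
  rw [S.ρρ, (S.spec _ (S.ρB ht)).2.2.2.2, S.ρρ]

lemma zero1 {T2 T3 : E → E} (hT2 : Measurable T2) (hT3 : Measurable T3)
    (m2 : (S.mu m).map T2 = S.mu m) (m3 : (S.mu m).map T3 = S.mu m)
    (hc : ∀ᵐ x ∂(S.mu m), ∃ t ∈ (B : Set E), Rearr x (T2 x) (T3 x) t (S.Y t) (S.Z t) ∨
      Rearr x (T2 x) (T3 x) t (S.y' t) (S.z' t)) :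
    (nu m) {x | x ∈ (B : Set E) ∧ T2 x ∈ S.Rg 1 ∪ S.Rg 2} = 0 :=
  mass_balance (nu m) (S.mu m) S.contY.measurable S.contZ.measurable
    S.conty'.measurable S.contz'.measurable S.conttY.measurable S.conttZ.measurable
    B_meas (S.Rg_meas 1) (S.Rg_meas 2) (S.B_disj (k := 1) (by decide))
    (S.B_disj (k := 2) (by decide)) (S.B_disj (k := 3) (by decide))
    (S.B_disj (k := 4) (by decide)) (S.Rg_disj (by decide)) (S.Rg_disj (by decide))
    (S.Rg_disj (by decide)) (S.Rg_disj (by decide)) (S.Rg_disj (by decide))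
    (nu_B m) rfl (fun _ ht => S.inY ht) (fun _ ht => S.inZ ht) (fun _ ht => S.iny ht)
    (fun _ ht => S.inz ht) (fun t ht => (S.spec t ht).2.2.2.1)
    (fun t ht => (S.spec t ht).2.2.2.2) hT2 hT3 m2 m3 hc

lemma mu_swap : S.mu m = (6 : ℝ≥0∞)⁻¹ • (nu m + nu m + (nu m).map S.y' + (nu m).map S.z'
    + (nu m).map S.Y + (nu m).map S.Z) := by
  unfold mu
  congr 1
  abel

lemma zero2 {T2 T3 : E → E} (hT2 : Measurable T2) (hT3 : Measurable T3)
    (m2 : (S.mu m).map T2 = S.mu m) (m3 : (S.mu m).map T3 = S.mu m)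
    (hc : ∀ᵐ x ∂(S.mu m), ∃ t ∈ (B : Set E), Rearr x (T2 x) (T3 x) t (S.y' t) (S.z' t) ∨
      Rearr x (T2 x) (T3 x) t (S.Y t) (S.Z t)) :
    (nu m) {x | x ∈ (B : Set E) ∧ T2 x ∈ S.Rg 3 ∪ S.Rg 4} = 0 :=
  mass_balance (nu m) (S.mu m) S.conty'.measurable S.contz'.measurable
    S.contY.measurable S.contZ.measurable
    (τy := fun p => S.ρ (S.tY (S.ρ p))) (τz := fun p => S.ρ (S.tZ (S.ρ p)))
    (S.ρ.continuous.comp (S.conttY.comp S.ρ.continuous)).measurable
    (S.ρ.continuous.comp (S.conttZ.comp S.ρ.continuous)).measurable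
    B_meas (S.Rg_meas 3) (S.Rg_meas 4) (S.B_disj (k := 3) (by decide))
    (S.B_disj (k := 4) (by decide)) (S.B_disj (k := 1) (by decide))
    (S.B_disj (k := 2) (by decide)) (S.Rg_disj (by decide)) (S.Rg_disj (by decide))
    (S.Rg_disj (by decide)) (S.Rg_disj (by decide)) (S.Rg_disj (by decide))
    (nu_B m) (S.mu_swap m) (fun _ ht => S.iny ht) (fun _ ht => S.inz ht) (fun _ ht => S.inY ht)
    (fun _ ht => S.inZ ht) (fun _ ht => S.left_y ht) (fun _ ht => S.left_z ht)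
    hT2 hT3 m2 m3 hc

lemma nu_ac : nu m ≪ S.mu m := by
  refine Measure.AbsolutelyContinuous.mk fun N hN h0 => ?_
  unfold mu at h0
  simp only [Measure.smul_apply, Measure.add_apply, smul_eq_mul, mul_eq_zero, add_eq_zero] at h0
  rcases h0 with h' | h'
  · simp at h'
  · exact h'.1.1.1.1.1

theorem no_monge {T2 T3 : E → E} (hT2 : Measurable T2) (hT3 : Measurable T3)
    (m2 : (S.mu m).map T2 = S.mu m) (m3 : (S.mu m).map T3 = S.mu m)
    (hopt : ∫⁻ x, costE x (T2 x) (T3 x) ∂(S.mu m) = kant (S.mu m)) : False := by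
  have hc := S.monge_contact m hT2 hT3 m2 m3 hopt
  have hc' : ∀ᵐ x ∂(S.mu m), ∃ t ∈ (B : Set E), Rearr x (T2 x) (T3 x) t (S.y' t) (S.z' t) ∨
      Rearr x (T2 x) (T3 x) t (S.Y t) (S.Z t) := by
    filter_upwards [hc] with x hx
    obtain ⟨t, ht, h⟩ := hx
    exact ⟨t, ht, h.symm⟩
  have z1 := S.zero1 m hT2 hT3 m2 m3 hc
  have z2 := S.zero2 m hT2 hT3 m2 m3 hc'
  have hcν := (S.nu_ac m).ae_le hc
  have w1 := measure_eq_zero_iff_ae_notMem.mp z1
  have w2 := measure_eq_zero_iff_ae_notMem.mp z2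
  have hfalse : ∀ᵐ x ∂(nu m), False := by
    filter_upwards [hcν, w1, w2, nu_B m] with x c1 c2 c3 c4
    obtain ⟨t, ht, h⟩ := c1
    have nB : ∀ {P R : Set E}, Disjoint P R → ∀ {x : E}, x ∈ P → x ∈ R → False := by
      intro P R h x h1 h2
      exact (Set.disjoint_left.mp h) h1 h2
    have d1 := S.B_disj (k := 1) (by decide)
    have d2 := S.B_disj (k := 2) (by decide)
    have d3 := S.B_disj (k := 3) (by decide)
    have d4 := S.B_disj (k := 4) (by decide)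
    rcases h with h | h
    · rcases h with ⟨h1, h2, h3⟩ | ⟨h1, h2, h3⟩ | ⟨h1, h2, h3⟩ | ⟨h1, h2, h3⟩ | ⟨h1, h2, h3⟩ |
          ⟨h1, h2, h3⟩
      · exact c2 ⟨c4, Or.inl (by rw [h2]; exact S.inY ht)⟩
      · exact c2 ⟨c4, Or.inr (by rw [h2]; exact S.inZ ht)⟩
      · exact nB d1 c4 (by rw [h1]; exact S.inY ht)
      · exact nB d1 c4 (by rw [h1]; exact S.inY ht)
      · exact nB d2 c4 (by rw [h1]; exact S.inZ ht)
      · exact nB d2 c4 (by rw [h1]; exact S.inZ ht)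
    · rcases h with ⟨h1, h2, h3⟩ | ⟨h1, h2, h3⟩ | ⟨h1, h2, h3⟩ | ⟨h1, h2, h3⟩ | ⟨h1, h2, h3⟩ |
          ⟨h1, h2, h3⟩
      · exact c3 ⟨c4, Or.inl (by rw [h2]; exact S.iny ht)⟩
      · exact c3 ⟨c4, Or.inr (by rw [h2]; exact S.inz ht)⟩
      · exact nB d3 c4 (by rw [h1]; exact S.iny ht)
      · exact nB d3 c4 (by rw [h1]; exact S.iny ht)
      · exact nB d4 c4 (by rw [h1]; exact S.inz ht)
      · exact nB d4 c4 (by rw [h1]; exact S.inz ht)
  rw [ae_iff] at hfalse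
  simp at hfalse

end Setup

end Vale.Agent.P121
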