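import Vale.Agent.P121.Exist

/-! Packaging of a branch as globally Lipschitz maps with Lipschitz left inverses. -/

namespace Vale.Agent.P121

open Metric Set NNReal

variable {E : Type*} [NormedAddCommGroup E] [InnerProductSpace ℝ E] [FiniteDimensional ℝ E]

lemma exists_leftInv (F : E → E) (B : Set E) (C : ℝ≥0)
    (h : ∀ x ∈ B, ∀ y ∈ B, dist x y ≤ C * dist (F x) (F y)) :
    ∃ t : E → E, (∃ K : ℝ≥0, LipschitzWith K t) ∧ ∀ x ∈ B, t (F x) = x := by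
  classical
  by_cases hne : Nonempty E
  · have hinv : ∀ p ∈ F '' B, Function.invFunOn F B p ∈ B ∧ F (Function.invFunOn F B p) = p := by
      intro p hp
      obtain ⟨x, hx, hxp⟩ := hp
      exact ⟨Function.invFunOn_mem ⟨x, hx, hxp⟩, Function.invFunOn_eq ⟨x, hx, hxp⟩⟩
    have hL : LipschitzOnWith C (Function.invFunOn F B) (F '' B) := by
      apply LipschitzOnWith.of_dist_le_mul
      intro p hp q hq
      obtain ⟨p1, p2⟩ := hinv p hp
      obtain ⟨q1, q2⟩ := hinv q hq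
      have := h _ p1 _ q1
      rwa [p2, q2] at this
    obtain ⟨t, ht, hEq⟩ := hL.extend_finite_dimension
    refine ⟨t, ⟨_, ht⟩, ?_⟩
    intro x hx
    have hmem : F x ∈ F '' B := ⟨x, hx, rfl⟩
    rw [← hEq hmem]
    obtain ⟨p1, p2⟩ := hinv _ hmem
    have := h _ p1 _ hx
    rw [p2, dist_self, mul_zero] at this
    exact dist_le_zero.mp this
  · exact (hne ⟨0⟩).elim

/-- Existence of a branch of configurations over the ball of radius `10^{-6}`. -/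
lemma exists_branch {e : E} (he : ‖e‖ = 1) :
    ∃ Y Z tY tZ : E → E,
      (∃ K : ℝ≥0, LipschitzWith K Y) ∧ (∃ K : ℝ≥0, LipschitzWith K Z) ∧
      (∃ K : ℝ≥0, LipschitzWith K tY) ∧ (∃ K : ℝ≥0, LipschitzWith K tZ) ∧
      ∀ x : E, ‖x‖ ≤ 1 / 10 ^ 6 →
        ‖Y x - e‖ ≤ 1 / 1000 ∧ ‖Z x + e‖ ≤ 8 / 1000 ∧ IsCfg e x (Y x) (Z x) ∧
        tY (Y x) = x ∧ tZ (Z x) = x := by
  classical
  have hex : ∀ x : E, ∃ y z : E, ‖x‖ ≤ 1 / 10 ^ 6 →
      (‖y - e‖ ≤ 1 / 1000 ∧ ‖z + e‖ ≤ 8 / 1000 ∧ IsCfg e x y z) := by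
    intro x
    by_cases hx : ‖x‖ ≤ 1 / 10 ^ 6
    · obtain ⟨y, z, h⟩ := exists_cfg he hx
      exact ⟨y, z, fun _ => h⟩
    · exact ⟨0, 0, fun h => (hx h).elim⟩
  choose y0 z0 h0 using hex
  set B : Set E := {x : E | ‖x‖ ≤ 1 / 10 ^ 6} with hB
  have LY : LipschitzOnWith 1 y0 B := by
    apply LipschitzOnWith.of_dist_le_mul
    intro p hp q hq
    have := ((h0 p hp).2.2.compare (h0 q hq).2.2).1
    simpa [dist_eq_norm] using this
  have LZ : LipschitzOnWith 2000 z0 B := by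
    apply LipschitzOnWith.of_dist_le_mul
    intro p hp q hq
    have := ((h0 p hp).2.2.compare (h0 q hq).2.2).2.1
    simpa [dist_eq_norm] using this
  obtain ⟨tY, htY, hY'⟩ := exists_leftInv y0 B 1000 (by
    intro p hp q hq
    have := ((h0 p hp).2.2.compare (h0 q hq).2.2).2.2.1
    simpa [dist_eq_norm] using this)
  obtain ⟨tZ, htZ, hZ'⟩ := exists_leftInv z0 B 1 (by
    intro p hp q hq
    have := ((h0 p hp).2.2.compare (h0 q hq).2.2).2.2.2
    simpa [dist_eq_norm] using this)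
  obtain ⟨Y, hYL, hYe⟩ := LY.extend_finite_dimension
  obtain ⟨Z, hZL, hZe⟩ := LZ.extend_finite_dimension
  refine ⟨Y, Z, tY, tZ, ⟨_, hYL⟩, ⟨_, hZL⟩, htY, htZ, ?_⟩
  intro x hx
  have e1 : y0 x = Y x := hYe hx
  have e2 : z0 x = Z x := hZe hx
  rw [← e1, ← e2]
  exact ⟨(h0 x hx).1, (h0 x hx).2.1, (h0 x hx).2.2, hY' x hx, hZ' x hx⟩

end Vale.Agent.P121
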