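import Vale.Agent.P121.Package

/-! Kantorovich potentials and the contact set for the five-cluster configuration. -/

namespace Vale.Agent.P121

open Metric Set NNReal

/-- All data of the construction. -/
structure Setup (E : Type*) [NormedAddCommGroup E] [InnerProductSpace ℝ E] where
  e : E
  f : E
  he : ‖e‖ = 1
  hf : ‖f‖ = 1
  hef : inner ℝ e f = (0 : ℝ)
  ρ : E ≃ₗᵢ[ℝ] E
  ρe : ρ e = f
  ρρ : ∀ x, ρ (ρ x) = x
  Y : E → E
  Z : E → E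
  tY : E → E
  tZ : E → E
  hY : ∃ K : ℝ≥0, LipschitzWith K Y
  hZ : ∃ K : ℝ≥0, LipschitzWith K Z
  htY : ∃ K : ℝ≥0, LipschitzWith K tY
  htZ : ∃ K : ℝ≥0, LipschitzWith K tZ
  spec : ∀ x : E, ‖x‖ ≤ 1 / 10 ^ 6 →
        ‖Y x - e‖ ≤ 1 / 1000 ∧ ‖Z x + e‖ ≤ 8 / 1000 ∧ IsCfg e x (Y x) (Z x) ∧
        tY (Y x) = x ∧ tZ (Z x) = x

section sym

variable {E : Type*} [NormedAddCommGroup E] [InnerProductSpace ℝ E]

lemma coul_swap12 (a b c : E) : coul b a c = coul a b c := by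
  unfold coul
  rw [norm_sub_rev b a]; ring

lemma coul_swap23 (a b c : E) : coul a c b = coul a b c := by
  unfold coul
  rw [norm_sub_rev c b]; ring

lemma coul_map (ρ : E ≃ₗᵢ[ℝ] E) (a b c : E) : coul (ρ a) (ρ b) (ρ c) = coul a b c := by
  unfold coul
  simp only [← map_sub, LinearIsometryEquiv.norm_map]

end sym

namespace Setup

variable {E : Type*} [NormedAddCommGroup E] [InnerProductSpace ℝ E] (S : Setup E)

/-- Parameter ball. -/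
def B : Set E := {x : E | ‖x‖ ≤ 1 / 10 ^ 6}

/-- The five cluster maps. -/
def w : Fin 5 → E → E :=
  ![fun x => x, fun x => S.Y x, fun x => S.Z x, fun x => S.ρ (S.Y (S.ρ x)),
    fun x => S.ρ (S.Z (S.ρ x))]

/-- Cluster centres. -/
def ctr : Fin 5 → E := ![0, S.e, -S.e, S.f, -S.f]

/-- The potential attached to the third cluster. -/
noncomputable def phiZ (p : E) : ℝ :=
  coul (S.tZ p) (S.Y (S.tZ p)) p - phiX (S.tZ p) - phiY S.e (S.Y (S.tZ p))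

/-- The global potential. -/
noncomputable def pot (p : E) : ℝ :=
  open Classical in
  if ‖p‖ ≤ 1 / 10 then phiX p
  else if ‖p - S.e‖ ≤ 1 / 10 then phiY S.e p
  else if ‖p + S.e‖ ≤ 1 / 10 then S.phiZ p
  else if ‖p - S.f‖ ≤ 1 / 10 then phiY S.e (S.ρ p)
  else S.phiZ (S.ρ p)

lemma ρf : S.ρ S.f = S.e := by rw [← S.ρe, S.ρρ]

lemma ρB {t : E} (ht : t ∈ (B : Set E)) : S.ρ t ∈ (B : Set E) := by
  simpa [B] using ht

lemma near (ℓ : Fin 5) {t : E} (ht : t ∈ (B : Set E)) : ‖S.w ℓ t - S.ctr ℓ‖ ≤ 8 / 1000 := by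
  have h1 := S.spec t ht
  have h2 := S.spec (S.ρ t) (S.ρB ht)
  fin_cases ℓ
  · have : ‖t‖ ≤ 1 / 10 ^ 6 := ht
    simp [w, ctr]
    norm_num at this
    linarith
  · simp [w, ctr]
    have := h1.1
    norm_num at this
    linarith
  · simp [w, ctr]
    have := h1.2.1
    norm_num at this
    linarith
  · simp only [w, ctr]
    change ‖S.ρ (S.Y (S.ρ t)) - S.f‖ ≤ _
    rw [← S.ρe, ← map_sub, LinearIsometryEquiv.norm_map]
    linarith [h2.1]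
  · simp only [w, ctr]
    change ‖S.ρ (S.Z (S.ρ t)) - (-S.f)‖ ≤ _
    rw [← S.ρe, ← map_neg, ← map_sub, LinearIsometryEquiv.norm_map, sub_neg_eq_add]
    exact h2.2.1

/-- Upper bounds (in thousandths) for distances of centres. -/
def cd : Fin 5 → Fin 5 → ℕ :=
  ![![0, 1000, 1000, 1000, 1000], ![1000, 0, 2000, 1415, 1415], ![1000, 2000, 0, 1415, 1415],
    ![1000, 1415, 1415, 0, 2000], ![1000, 1415, 1415, 2000, 0]]

/-- Lower bounds (in thousandths) for inverse distances. -/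
def q : Fin 5 → Fin 5 → ℕ :=
  ![![10000, 980, 980, 980, 980], ![980, 10000, 490, 690, 690], ![980, 490, 10000, 690, 690],
    ![980, 690, 690, 10000, 490], ![980, 690, 690, 490, 10000]]

/-- Upper bounds (in thousandths) for the potential. -/
def s : Fin 5 → ℕ := ![1500, 520, 520, 520, 520]

lemma norm_ef : ‖S.e - S.f‖ ≤ 1415 / 1000 := by
  have h : ‖S.e - S.f‖ ^ 2 = 2 := by
    rw [norm_sub_sq_real, S.he, S.hf, S.hef]; norm_num
  have h0 := norm_nonneg (S.e - S.f)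
  by_contra hc
  push Not at hc
  nlinarith

lemma norm_ef' : ‖S.e + S.f‖ ≤ 1415 / 1000 := by
  have h : ‖S.e + S.f‖ ^ 2 = 2 := by
    rw [norm_add_sq_real, S.he, S.hf, S.hef]; norm_num
  have h0 := norm_nonneg (S.e + S.f)
  by_contra hc
  push Not at hc
  nlinarith

lemma norm_two (v : E) (hv : ‖v‖ = 1) : ‖v + v‖ ≤ 2 := by
  have := norm_add_le v v
  linarith

lemma ctr_dist (ℓ m : Fin 5) : ‖S.ctr ℓ - S.ctr m‖ ≤ (cd ℓ m : ℝ) / 1000 := by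
  have a1 := S.norm_ef
  have a2 := S.norm_ef'
  have a3 : ‖S.f - S.e‖ ≤ 1415 / 1000 := by rw [norm_sub_rev]; exact a1
  have a4 : ‖S.f + S.e‖ ≤ 1415 / 1000 := by rw [add_comm]; exact a2
  have b1 := norm_two S.e S.he
  have b2 := norm_two S.f S.hf
  have c1 := S.he
  have c2 := S.hf
  have n1 : ‖-S.e - S.e‖ = ‖S.e + S.e‖ := by rw [← norm_neg]; congr 1; abel
  have n2 : ‖-S.f - S.f‖ = ‖S.f + S.f‖ := by rw [← norm_neg]; congr 1; abel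
  have n3 : ‖-S.e - S.f‖ = ‖S.e + S.f‖ := by rw [← norm_neg]; congr 1; abel
  have n4 : ‖-S.f - S.e‖ = ‖S.e + S.f‖ := by rw [← norm_neg]; congr 1; abel
  have n5 : ‖-S.e + S.f‖ = ‖S.e - S.f‖ := by rw [← norm_neg]; congr 1; abel
  have n6 : ‖-S.f + S.e‖ = ‖S.e - S.f‖ := by congr 1; abel
  fin_cases ℓ <;> fin_cases m <;> simp [ctr, cd, c1, c2] <;>
    norm_num [n1, n2, n3, n4, n5, n6] at a1 a2 a3 a4 b1 b2 ⊢ <;> linarith

lemma inv_dist (ℓ m : Fin 5) {a b : E} (ha : ‖a - S.ctr ℓ‖ ≤ 8 / 1000)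
    (hb : ‖b - S.ctr m‖ ≤ 8 / 1000) (hab : a ≠ b) : (q ℓ m : ℝ) / 1000 ≤ ‖a - b‖⁻¹ := by
  have h0 : 0 < ‖a - b‖ := norm_pos_iff.mpr (sub_ne_zero.mpr hab)
  have h1 : ‖a - b‖ ≤ (cd ℓ m : ℝ) / 1000 + 16 / 1000 := by
    have e1 : a - b = (a - S.ctr ℓ) + (S.ctr ℓ - S.ctr m) - (b - S.ctr m) := by abel
    rw [e1]
    have h2 := norm_sub_le ((a - S.ctr ℓ) + (S.ctr ℓ - S.ctr m)) (b - S.ctr m)
    have h3 := norm_add_le (a - S.ctr ℓ) (S.ctr ℓ - S.ctr m)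
    have h4 := S.ctr_dist ℓ m
    linarith
  have h2 : (q ℓ m : ℝ) * ((cd ℓ m : ℝ) + 16) ≤ 10 ^ 6 := by
    have : ∀ ℓ m : Fin 5, q ℓ m * (cd ℓ m + 16) ≤ 10 ^ 6 := by decide
    exact_mod_cast this ℓ m
  have h3 : (0 : ℝ) ≤ (cd ℓ m : ℝ) := by positivity
  rw [le_inv_comm₀ (by
    have : ∀ ℓ m : Fin 5, 0 < q ℓ m := by decide
    have h : (0 : ℝ) < (q ℓ m : ℝ) := by exact_mod_cast this ℓ m
    positivity) h0]
  have hq : (0 : ℝ) < (q ℓ m : ℝ) := by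
    have : ∀ ℓ m : Fin 5, 0 < q ℓ m := by decide
    exact_mod_cast this ℓ m
  refine h1.trans ?_
  rw [inv_div, le_div_iff₀ hq]
  nlinarith

lemma lab_cases : ∀ ℓ m n : Fin 5, (s ℓ + s m + s n < q ℓ m + q ℓ n + q m n) ∨
    (ℓ, m, n) = (0, 1, 2) ∨ (ℓ, m, n) = (0, 2, 1) ∨ (ℓ, m, n) = (1, 0, 2) ∨
    (ℓ, m, n) = (1, 2, 0) ∨ (ℓ, m, n) = (2, 0, 1) ∨ (ℓ, m, n) = (2, 1, 0) ∨
    (ℓ, m, n) = (0, 3, 4) ∨ (ℓ, m, n) = (0, 4, 3) ∨ (ℓ, m, n) = (3, 0, 4) ∨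
    (ℓ, m, n) = (3, 4, 0) ∨ (ℓ, m, n) = (4, 0, 3) ∨ (ℓ, m, n) = (4, 3, 0) := by decide

end Setup

end Vale.Agent.P121
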